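import Vale.Agent.P245.QC.EB
import Vale.Agent.P245.QC.Fin
import Vale.Agent.P245.QC.Iso
import Vale.Agent.P245.QC.Med12
import Vale.Agent.P245.QC.PW12
import Vale.Agent.P245.QC.Sup
import Vale.Agent.P245.QC.H110.Bm
import Vale.Agent.P245.H607.Cor

/-!
P245: assembly for convex sets and quasi-concave functions (719's rows).
-/

open MeasureTheory
open scoped ContDiff

namespace Vale.Agent.P245.H847

open Vale.Agent.P245

variable {n : ℕ} {μ : Measure (EuclideanSpace ℝ (Fin n))}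

/-- isoperimetric inequality for convex sets -/
theorem iso_convex [IsProbabilityMeasure μ] {a C0 : ℝ} (ha : 0 < a) (hC0 : 0 < C0)
    (hK : H607.KLS C0) (hlc : HasLogConcaveDensity μ) (hsub : LinearlySubgaussian μ a) :
    QC.Iso μ (16 * √((8 * C0 + 26) * a ^ 2)) (8 * √((8 * C0 + 26) * a ^ 2 * Real.log 2)) :=
  QC.iso QC.H110.bm n μ hlc ((8 * C0 + 26) * a ^ 2) (by positivity)
    (fun F hF hFc t ht => H607.conc ha hC0 hK hlc hsub hF hFc ht)
    (fun F hF => H607.lip_integrable ha hsub hF)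

/-- logarithmic Sobolev inequality for quasi-concave functions -/
theorem lsi_quasi [IsProbabilityMeasure μ] {a C0 P : ℝ} (ha : 0 < a) (hC0 : 0 < C0)
    (hK : H607.KLS C0) (hlc : HasLogConcaveDensity μ) (hsub : LinearlySubgaussian μ a)
    (hP0 : 0 ≤ P)
    (hP : ∀ f : EuclideanSpace ℝ (Fin n) → ℝ, ContDiff ℝ ∞ f → HasCompactSupport f →
      (∫ x, f x ^ 2 ∂μ) - (∫ x, f x ∂μ) ^ 2 ≤ P * ∫ x, ‖gradient f x‖ ^ 2 ∂μ)
    {f : EuclideanSpace ℝ (Fin n) → ℝ} (hf : ContDiff ℝ ∞ f) (hfc : HasCompactSupport f)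
    (hf0 : ∀ x, 0 ≤ f x) (hfq : QuasiconcaveOn ℝ Set.univ f) :
    Entropy μ (fun x => f x ^ 2) ≤
      (60 * P + 163840 * ((8 * C0 + 26) * a ^ 2)) * ∫ x, ‖gradient f x‖ ^ 2 ∂μ := by
  have hlog : 0 < Real.log 2 := Real.log_pos (by norm_num)
  have h := QC.fin QC.sup QC.H12.med QC.H12.pw QC.eb n μ (16 * √((8 * C0 + 26) * a ^ 2))
    (8 * √((8 * C0 + 26) * a ^ 2 * Real.log 2)) P (by positivity) (by positivity) hP0
    (iso_convex ha hC0 hK hlc hsub) hP f hf hfc hf0 hfq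
  refine h.trans (le_of_eq ?_)
  have e : (16 * √((8 * C0 + 26) * a ^ 2)) ^ 2 = 256 * ((8 * C0 + 26) * a ^ 2) := by
    rw [mul_pow, Real.sq_sqrt (by positivity)]; norm_num
  rw [e]; ring

end Vale.Agent.P245.H847
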