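import Vale.Agent.P245.H847.EntGen

/-!
P245: from a Poincaré inequality to `Ent (f²) ≤ 200 (p/(p-2)) κ ‖Df‖_p²` for every `p > 2`.
-/

open MeasureTheory Filter Topology
open scoped ContDiff

namespace Vale.Agent.P245.H847.Lp

variable {n : ℕ} {μ : Measure (EuclideanSpace ℝ (Fin n))} {κ e : ℝ}

theorem norm_gradient (f : EuclideanSpace ℝ (Fin n) → ℝ) (x : EuclideanSpace ℝ (Fin n)) :
    ‖gradient f x‖ = ‖fderiv ℝ f x‖ := by
  unfold gradient
  exact (InnerProductSpace.toDual ℝ (EuclideanSpace ℝ (Fin n))).symm.norm_map _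

/-- the regularised power -/
noncomputable def ph (e η s : ℝ) : ℝ := (s ^ 2 + η ^ 2) ^ ((1 + e) / 2)

theorem hasDerivAt_ph (e : ℝ) {η : ℝ} (hη : 0 < η) (s : ℝ) :
    HasDerivAt (ph e η) ((1 + e) * s * (s ^ 2 + η ^ 2) ^ ((e - 1) / 2)) s := by
  have h0 : s ^ 2 + η ^ 2 ≠ 0 := by positivity
  have h1 : HasDerivAt (fun s : ℝ => s ^ 2 + η ^ 2) (2 * s) s := by
    have := (hasDerivAt_pow 2 s).add_const (η ^ 2)
    simpa using this
  have h2 := h1.rpow_const (p := (1 + e) / 2) (Or.inl h0)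
  unfold ph
  convert h2 using 1
  rw [show (1 + e) / 2 - 1 = (e - 1) / 2 by ring]
  ring

theorem abs_deriv_ph (he : 0 < e) (he1 : e < 1) {η : ℝ} (hη : 0 < η) (s : ℝ) :
    |(1 + e) * s * (s ^ 2 + η ^ 2) ^ ((e - 1) / 2)| ≤ (1 + e) * |s| ^ e := by
  have h0 : 0 < s ^ 2 + η ^ 2 := by positivity
  rw [abs_mul, abs_mul, abs_of_pos (show 0 < 1 + e by linarith),
    abs_of_nonneg (Real.rpow_nonneg h0.le _), mul_assoc]
  refine mul_le_mul_of_nonneg_left ?_ (by linarith)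
  rcases eq_or_ne s 0 with hs | hs
  · rw [hs, abs_zero, zero_mul, Real.zero_rpow he.ne']
  · have hs' : 0 < |s| := abs_pos.mpr hs
    have h1 : (s ^ 2 + η ^ 2) ^ ((e - 1) / 2) ≤ (s ^ 2) ^ ((e - 1) / 2) :=
      Real.rpow_le_rpow_of_nonpos (by positivity) (by nlinarith [sq_nonneg η]) (by linarith)
    have h2 : (s ^ 2) ^ ((e - 1) / 2) = |s| ^ (e - 1) := by
      rw [← sq_abs, ← Real.rpow_natCast, ← Real.rpow_mul (abs_nonneg _)]
      congr 1; push_cast; ring
    have h3 : |s| * |s| ^ (e - 1) = |s| ^ e := by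
      rw [← Real.rpow_one_add' hs'.le (by linarith)]
      congr 1; ring
    calc |s| * (s ^ 2 + η ^ 2) ^ ((e - 1) / 2) ≤ |s| * |s| ^ (e - 1) :=
          mul_le_mul_of_nonneg_left (h1.trans_eq h2) hs'.le
      _ = |s| ^ e := h3

section
variable [IsProbabilityMeasure μ]

theorem int_of_bdd {g : EuclideanSpace ℝ (Fin n) → ℝ} (hg : Continuous g) {M : ℝ}
    (hM : ∀ x, |g x| ≤ M) : Integrable g μ :=
  Integrable.mono' (integrable_const M) hg.aestronglyMeasurable
    (Eventually.of_forall fun x => by rw [Real.norm_eq_abs]; exact hM x)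

theorem exists_bd {f : EuclideanSpace ℝ (Fin n) → ℝ} (hf : Continuous f) (hc : HasCompactSupport f) :
    ∃ M, 0 ≤ M ∧ ∀ x, |f x| ≤ M := by
  obtain ⟨M, hM⟩ := hf.bounded_above_of_compact_support hc
  exact ⟨|M|, abs_nonneg _, fun x => by
    have := hM x; rw [Real.norm_eq_abs] at this; exact this.trans (le_abs_self M)⟩

/-- first step: the Poincaré inequality for the regularised power -/
theorem step_a (hP : ∀ u : EuclideanSpace ℝ (Fin n) → ℝ, ContDiff ℝ ∞ u → HasCompactSupport u →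
      (∫ x, u x ^ 2 ∂μ) - (∫ x, u x ∂μ) ^ 2 ≤ κ * ∫ x, ‖gradient u x‖ ^ 2 ∂μ)
    (hκ : 0 ≤ κ) (he : 0 < e) (he1 : e < 1) {f : EuclideanSpace ℝ (Fin n) → ℝ}
    (hf : ContDiff ℝ ∞ f) (hc : HasCompactSupport f) (m : ℝ) {η : ℝ} (hη : 0 < η) :
    ∫ x, |f x - m| ^ (2 + 2 * e) ∂μ ≤ ((∫ x, (f x - m) ^ 2 ∂μ) + η ^ 2) ^ (1 + e) +
      κ * ((1 + e) ^ 2 * ∫ x, |f x - m| ^ (2 * e) * ‖gradient f x‖ ^ 2 ∂μ) := by
  obtain ⟨M, hM0, hM⟩ := exists_bd hf.continuous hc
  have hFb : ∀ x, |f x - m| ≤ M + |m| := fun x => (abs_sub _ _).trans (by linarith [hM x])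
  have hfd : ∀ x, HasFDerivAt f (fderiv ℝ f x) x := fun x =>
    (hf.differentiable (by simp)).differentiableAt.hasFDerivAt
  have hgc : Continuous fun x => ‖gradient f x‖ := by
    have h1 : Continuous (fderiv ℝ f) := hf.continuous_fderiv (by simp)
    have : (fun x => ‖gradient f x‖) = fun x => ‖fderiv ℝ f x‖ := funext fun x => norm_gradient f x
    rw [this]; exact h1.norm
  have hgcs : HasCompactSupport fun x => ‖gradient f x‖ := by
    have h1 : HasCompactSupport (fderiv ℝ f) := hc.fderiv ℝ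
    have : (fun x => ‖gradient f x‖) = fun x => ‖fderiv ℝ f x‖ := funext fun x => norm_gradient f x
    rw [this]; exact h1.norm
  obtain ⟨D, hD0, hD⟩ := exists_bd hgc hgcs
  -- the test function
  set k : ℝ := ph e η (0 - m) with hk
  set G : EuclideanSpace ℝ (Fin n) → ℝ := fun x => ph e η (f x - m) - k with hG
  have hphc : ContDiff ℝ ∞ (ph e η) := by
    unfold ph
    refine ContDiff.rpow_const_of_ne (by fun_prop) fun x => by positivity
  have hGs : ContDiff ℝ ∞ G := (hphc.comp (hf.sub contDiff_const)).sub contDiff_const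
  have hGc : HasCompactSupport G := by
    refine hc.comp_left (g := fun s : ℝ => ph e η (s - m) - k) ?_
    rw [hk, sub_self]
  have hGg : ∀ x, ‖gradient G x‖ ^ 2 ≤ (1 + e) ^ 2 * (|f x - m| ^ (2 * e) * ‖gradient f x‖ ^ 2) := by
    intro x
    have h1 : HasFDerivAt G (((1 + e) * (f x - m) * ((f x - m) ^ 2 + η ^ 2) ^ ((e - 1) / 2)) •
        fderiv ℝ f x) x := by
      have h2 := (hasDerivAt_ph e hη (f x - m)).comp_hasFDerivAt x ((hfd x).sub_const m)
      exact h2.sub_const k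
    have h3 : ‖gradient G x‖ ≤ (1 + e) * |f x - m| ^ e * ‖gradient f x‖ := by
      rw [norm_gradient, norm_gradient, h1.fderiv, norm_smul, Real.norm_eq_abs]
      exact mul_le_mul_of_nonneg_right (abs_deriv_ph he he1 hη _) (norm_nonneg _)
    have h4 : |f x - m| ^ (2 * e) = (|f x - m| ^ e) ^ 2 := by
      rw [← Real.rpow_natCast, ← Real.rpow_mul (abs_nonneg _)]
      congr 1; push_cast; ring
    have h5 : 0 ≤ ‖gradient G x‖ := norm_nonneg _
    calc ‖gradient G x‖ ^ 2 ≤ ((1 + e) * |f x - m| ^ e * ‖gradient f x‖) ^ 2 :=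
          pow_le_pow_left₀ h5 h3 2
      _ = _ := by rw [h4]; ring
  have hGcc : Continuous fun x => ‖gradient G x‖ := by
    have h1 : Continuous (fderiv ℝ G) := hGs.continuous_fderiv (by simp)
    have : (fun x => ‖gradient G x‖) = fun x => ‖fderiv ℝ G x‖ := funext fun x => norm_gradient G x
    rw [this]; exact h1.norm
  have hphF : Continuous fun x => ph e η (f x - m) := hphc.continuous.comp (by fun_prop)
  have hfc := hf.continuous
  have hFp : ∀ r : ℝ, 0 < r → Continuous fun x => |f x - m| ^ r := fun r hr =>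
    (Real.continuous_rpow_const hr.le).comp (by fun_prop)
  have hFpb : ∀ r : ℝ, 0 < r → ∀ x, |(|f x - m| ^ r)| ≤ (M + |m|) ^ r := fun r hr x => by
    rw [abs_of_nonneg (Real.rpow_nonneg (abs_nonneg _) _)]
    exact Real.rpow_le_rpow (abs_nonneg _) (hFb x) hr.le
  have hprod : Integrable (fun x => |f x - m| ^ (2 * e) * ‖gradient f x‖ ^ 2) μ := by
    refine int_of_bdd (M := (M + |m|) ^ (2 * e) * D ^ 2) ((hFp _ (by linarith)).mul (hgc.pow 2)) fun x => ?_
    rw [abs_mul, abs_pow]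
    exact mul_le_mul (hFpb _ (by linarith) x) (pow_le_pow_left₀ (abs_nonneg _) (hD x) 2)
      (by positivity) (by positivity)
  -- bounds of `ph`
  have hph0 : ∀ s, 0 ≤ ph e η s := fun s => Real.rpow_nonneg (by positivity) _
  have hphsq : ∀ s, ph e η s ^ 2 = (s ^ 2 + η ^ 2) ^ (1 + e) := fun s => by
    unfold ph
    rw [← Real.rpow_natCast, ← Real.rpow_mul (by positivity)]
    congr 1; push_cast; ring
  have hphb : ∀ x, ph e η (f x - m) ≤ ((M + |m|) ^ 2 + η ^ 2) ^ ((1 + e) / 2) := fun x => by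
    unfold ph
    refine Real.rpow_le_rpow (by positivity) ?_ (by linarith)
    have := pow_le_pow_left₀ (abs_nonneg _) (hFb x) 2
    rw [sq_abs] at this
    linarith
  set B : ℝ := ((M + |m|) ^ 2 + η ^ 2) ^ ((1 + e) / 2) with hB
  have i1 : Integrable (fun x => ph e η (f x - m)) μ :=
    int_of_bdd hphF (M := B) fun x => by rw [abs_of_nonneg (hph0 _)]; exact hphb x
  have i2 : Integrable (fun x => ph e η (f x - m) ^ 2) μ :=
    int_of_bdd (hphF.pow 2) (M := B ^ 2) fun x => by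
      rw [abs_pow, abs_of_nonneg (hph0 _)]; exact pow_le_pow_left₀ (hph0 _) (hphb x) 2
  have iF2 : Integrable (fun x => (f x - m) ^ 2) μ :=
    int_of_bdd (by fun_prop) (M := (M + |m|) ^ 2) fun x => by
      rw [abs_pow]; exact pow_le_pow_left₀ (abs_nonneg _) (hFb x) 2
  -- variance of `G`
  have hvar : (∫ x, G x ^ 2 ∂μ) - (∫ x, G x ∂μ) ^ 2 =
      (∫ x, ph e η (f x - m) ^ 2 ∂μ) - (∫ x, ph e η (f x - m) ∂μ) ^ 2 := by
    have e1 : ∫ x, G x ∂μ = (∫ x, ph e η (f x - m) ∂μ) - k := by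
      rw [hG, integral_sub i1 (integrable_const _)]; simp
    have e2 : ∫ x, G x ^ 2 ∂μ = (∫ x, ph e η (f x - m) ^ 2 ∂μ) -
        2 * k * (∫ x, ph e η (f x - m) ∂μ) + k ^ 2 := by
      have : ∀ x, G x ^ 2 = ph e η (f x - m) ^ 2 - 2 * k * ph e η (f x - m) + k ^ 2 := fun x => by
        rw [hG]; ring
      have j1 : Integrable (fun x => 2 * k * ph e η (f x - m)) μ := i1.const_mul _
      have j2 : Integrable (fun x => ph e η (f x - m) ^ 2 - 2 * k * ph e η (f x - m)) μ :=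
        i2.sub j1
      have j3 : ∫ x, G x ^ 2 ∂μ =
          ∫ x, (ph e η (f x - m) ^ 2 - 2 * k * ph e η (f x - m) + k ^ 2) ∂μ :=
        integral_congr_ae (Eventually.of_forall this)
      rw [j3, integral_add j2 (integrable_const _), integral_sub i2 j1, integral_const_mul]
      simp
    rw [e1, e2]; ring
  have hP' := hP G hGs hGc
  rw [hvar] at hP'
  have h5 : ∫ x, ‖gradient G x‖ ^ 2 ∂μ ≤
      (1 + e) ^ 2 * ∫ x, |f x - m| ^ (2 * e) * ‖gradient f x‖ ^ 2 ∂μ := by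
    rw [← integral_const_mul]
    refine integral_mono_of_nonneg (Eventually.of_forall fun x => by positivity)
      (hprod.const_mul _) (Eventually.of_forall hGg)
  -- Jensen
  have h6 : ∫ x, ph e η (f x - m) ∂μ ≤ ((∫ x, (f x - m) ^ 2 ∂μ) + η ^ 2) ^ ((1 + e) / 2) := by
    have hconc : ConcaveOn ℝ (Set.Ici 0) fun x : ℝ => x ^ ((1 + e) / 2) :=
      Real.concaveOn_rpow (by linarith) (by linarith)
    have hcont : ContinuousOn (fun x : ℝ => x ^ ((1 + e) / 2)) (Set.Ici 0) :=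
      (Real.continuous_rpow_const (by linarith)).continuousOn
    have h7 := hconc.le_map_integral hcont isClosed_Ici (μ := μ)
      (f := fun x => (f x - m) ^ 2 + η ^ 2)
      (Eventually.of_forall fun x => by
        show (0:ℝ) ≤ (f x - m) ^ 2 + η ^ 2
        positivity)
      (iF2.add (integrable_const _)) i1
    have h8 : ∫ x, ((f x - m) ^ 2 + η ^ 2) ∂μ = (∫ x, (f x - m) ^ 2 ∂μ) + η ^ 2 := by
      rw [integral_add iF2 (integrable_const _)]; simp
    rw [h8] at h7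
    exact h7
  have h9 : 0 ≤ ∫ x, ph e η (f x - m) ∂μ := integral_nonneg fun x => hph0 _
  have hS0 : 0 ≤ ∫ x, (f x - m) ^ 2 ∂μ := integral_nonneg fun x => sq_nonneg _
  have h10 : (∫ x, ph e η (f x - m) ∂μ) ^ 2 ≤ ((∫ x, (f x - m) ^ 2 ∂μ) + η ^ 2) ^ (1 + e) := by
    refine (pow_le_pow_left₀ h9 h6 2).trans (le_of_eq ?_)
    rw [← Real.rpow_natCast, ← Real.rpow_mul (by positivity)]
    congr 1; push_cast; ring
  have h11 : ∫ x, |f x - m| ^ (2 + 2 * e) ∂μ ≤ ∫ x, ph e η (f x - m) ^ 2 ∂μ := by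
    refine integral_mono (int_of_bdd (hFp _ (by linarith)) (hFpb _ (by linarith))) i2 fun x => ?_
    show |f x - m| ^ (2 + 2 * e) ≤ ph e η (f x - m) ^ 2
    rw [hphsq, ← Gen.sq_rpow']
    exact Real.rpow_le_rpow (sq_nonneg _) (by nlinarith [sq_nonneg η]) (by linarith)
  have h12 := mul_le_mul_of_nonneg_left h5 hκ
  linarith

/-- second step: `η → 0` -/
theorem step_b (hP : ∀ u : EuclideanSpace ℝ (Fin n) → ℝ, ContDiff ℝ ∞ u → HasCompactSupport u →
      (∫ x, u x ^ 2 ∂μ) - (∫ x, u x ∂μ) ^ 2 ≤ κ * ∫ x, ‖gradient u x‖ ^ 2 ∂μ)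
    (hκ : 0 ≤ κ) (he : 0 < e) (he1 : e < 1) {f : EuclideanSpace ℝ (Fin n) → ℝ}
    (hf : ContDiff ℝ ∞ f) (hc : HasCompactSupport f) (m : ℝ) :
    ∫ x, |f x - m| ^ (2 + 2 * e) ∂μ ≤ (∫ x, (f x - m) ^ 2 ∂μ) ^ (1 + e) +
      κ * ((1 + e) ^ 2 * ∫ x, |f x - m| ^ (2 * e) * ‖gradient f x‖ ^ 2 ∂μ) := by
  set S : ℝ := ∫ x, (f x - m) ^ 2 ∂μ with hS
  set T : ℝ := κ * ((1 + e) ^ 2 * ∫ x, |f x - m| ^ (2 * e) * ‖gradient f x‖ ^ 2 ∂μ) with hT
  have hc1 : Continuous fun η : ℝ => (S + η ^ 2) ^ (1 + e) + T := by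
    refine Continuous.add ?_ continuous_const
    exact (Real.continuous_rpow_const (by linarith)).comp (by fun_prop)
  have h1 : Tendsto (fun η : ℝ => (S + η ^ 2) ^ (1 + e) + T) (𝓝[>] 0)
      (𝓝 ((S + 0 ^ 2) ^ (1 + e) + T)) := (hc1.tendsto 0).mono_left nhdsWithin_le_nhds
  have h2 : (S + 0 ^ 2) ^ (1 + e) + T = S ^ (1 + e) + T := by norm_num
  rw [h2] at h1
  refine ge_of_tendsto h1 ?_
  filter_upwards [self_mem_nhdsWithin] with η hη
  exact step_a hP hκ he he1 hf hc m hη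

/-- Hölder -/
theorem holder (he : 0 < e) (he1 : e < 1) {g w : EuclideanSpace ℝ (Fin n) → ℝ}
    (hg : Continuous g) (hw : Continuous w) {M D : ℝ} (hM : ∀ x, |g x| ≤ M) (hD : ∀ x, |w x| ≤ D) :
    ∫ x, |g x| ^ (2 * e) * |w x| ^ 2 ∂μ ≤
      (∫ x, g x ^ 2 ∂μ) ^ e * (∫ x, |w x| ^ (2 / (1 - e)) ∂μ) ^ (1 - e) := by
  have he2 : 0 < 1 - e := by linarith
  have hpq : (1 / e).HolderConjugate (1 / (1 - e)) := by
    rw [Real.holderConjugate_iff]
    constructor
    · rw [lt_div_iff₀ he]; linarith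
    · rw [one_div, one_div, inv_inv, inv_inv]; ring
  have hM0 : 0 ≤ M := (abs_nonneg _).trans (hM 0)
  have hD0 : 0 ≤ D := (abs_nonneg _).trans (hD 0)
  have c1 : Continuous fun x => |g x| ^ (2 * e) :=
    (Real.continuous_rpow_const (by linarith)).comp (by fun_prop)
  have c2 : Continuous fun x => |w x| ^ 2 := by fun_prop
  have m1 : MemLp (fun x => |g x| ^ (2 * e)) (ENNReal.ofReal (1 / e)) μ := by
    refine MemLp.of_bound c1.aestronglyMeasurable (M ^ (2 * e)) (Eventually.of_forall fun x => ?_)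
    rw [Real.norm_eq_abs, abs_of_nonneg (Real.rpow_nonneg (abs_nonneg _) _)]
    exact Real.rpow_le_rpow (abs_nonneg _) (hM x) (by linarith)
  have m2 : MemLp (fun x => |w x| ^ 2) (ENNReal.ofReal (1 / (1 - e))) μ := by
    refine MemLp.of_bound c2.aestronglyMeasurable (D ^ 2) (Eventually.of_forall fun x => ?_)
    rw [Real.norm_eq_abs, abs_of_nonneg (by positivity)]
    exact pow_le_pow_left₀ (abs_nonneg _) (hD x) 2
  have h1 := integral_mul_le_Lp_mul_Lq_of_nonneg hpq (μ := μ)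
    (f := fun x => |g x| ^ (2 * e)) (g := fun x => |w x| ^ 2)
    (Eventually.of_forall fun x => Real.rpow_nonneg (abs_nonneg _) _)
    (Eventually.of_forall fun x => by positivity) m1 m2
  have e1 : ∀ x, (|g x| ^ (2 * e)) ^ (1 / e) = g x ^ 2 := fun x => by
    rw [← Real.rpow_mul (abs_nonneg _), show 2 * e * (1 / e) = 2 by field_simp, Real.rpow_two,
      sq_abs]
  have e2 : ∀ x, (|w x| ^ 2) ^ (1 / (1 - e)) = |w x| ^ (2 / (1 - e)) := fun x => by
    rw [← Real.rpow_natCast, ← Real.rpow_mul (abs_nonneg _)]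
    congr 1; push_cast; ring
  have e3 : ∫ x, (|g x| ^ (2 * e)) ^ (1 / e) ∂μ = ∫ x, g x ^ 2 ∂μ :=
    integral_congr_ae (Eventually.of_forall e1)
  have e4 : ∫ x, (|w x| ^ 2) ^ (1 / (1 - e)) ∂μ = ∫ x, |w x| ^ (2 / (1 - e)) ∂μ :=
    integral_congr_ae (Eventually.of_forall e2)
  rw [e3, e4, one_div, one_div, inv_inv, one_div, one_div, inv_inv] at h1
  exact h1

/-- **From the Poincaré inequality to the entropy with `L^p` gradient, `p > 2`.** -/
theorem main (hP : ∀ u : EuclideanSpace ℝ (Fin n) → ℝ, ContDiff ℝ ∞ u → HasCompactSupport u →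
      (∫ x, u x ^ 2 ∂μ) - (∫ x, u x ∂μ) ^ 2 ≤ κ * ∫ x, ‖gradient u x‖ ^ 2 ∂μ)
    (hκ : 0 ≤ κ) {p : ℝ} (hp : 2 < p) {f : EuclideanSpace ℝ (Fin n) → ℝ}
    (hf : ContDiff ℝ ∞ f) (hc : HasCompactSupport f) :
    Entropy μ (fun x => f x ^ 2) ≤
      200 * (p / (p - 2)) * κ * (∫ x, ‖gradient f x‖ ^ p ∂μ) ^ (2 / p) := by
  obtain ⟨e, hee⟩ : ∃ e : ℝ, e = 1 - 2 / p := ⟨_, rfl⟩
  have hp0 : 0 < p := by linarith
  have h2p : 2 / p < 1 := by rw [div_lt_one hp0]; exact hp
  have he : 0 < e := by rw [hee]; linarith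
  have he1 : e < 1 := by rw [hee]; have : 0 < 2 / p := by positivity
                         linarith
  have hpe : 2 / (1 - e) = p := by rw [hee]; field_simp; ring
  have h1e : 1 - e = 2 / p := by rw [hee]; ring
  have hie : p / (p - 2) = 1 / e := by
    rw [hee]
    have : p - 2 ≠ 0 := by linarith
    field_simp
  set m : ℝ := ∫ x, f x ∂μ with hm
  obtain ⟨M, hM0, hM⟩ := exists_bd hf.continuous hc
  have hFb : ∀ x, |f x - m| ≤ M + |m| := fun x => (abs_sub _ _).trans (by linarith [hM x])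
  have hgc : Continuous fun x => ‖gradient f x‖ := by
    have h1 : Continuous (fderiv ℝ f) := hf.continuous_fderiv (by simp)
    have : (fun x => ‖gradient f x‖) = fun x => ‖fderiv ℝ f x‖ := funext fun x => norm_gradient f x
    rw [this]; exact h1.norm
  have hgcs : HasCompactSupport fun x => ‖gradient f x‖ := by
    have h1 : HasCompactSupport (fderiv ℝ f) := hc.fderiv ℝ
    have : (fun x => ‖gradient f x‖) = fun x => ‖fderiv ℝ f x‖ := funext fun x => norm_gradient f x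
    rw [this]; exact h1.norm
  obtain ⟨D, hD0, hD⟩ := exists_bd hgc hgcs
  have hfc := hf.continuous
  have hFc : Continuous fun x => f x - m := by fun_prop
  set T : ℝ := (∫ x, ‖gradient f x‖ ^ p ∂μ) ^ (2 / p) with hT
  have hT0 : 0 ≤ T := Real.rpow_nonneg (integral_nonneg fun x => Real.rpow_nonneg (norm_nonneg _) _) _
  -- Hölder
  have hH := holder (μ := μ) he he1 hFc hgc hFb hD
  have hH1 := holder (μ := μ) he he1 (continuous_const (y := (1:ℝ))) hgc (M := 1)
    (fun x => by simp) hD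
  have hpp : 2 / (2 / p) = p := by field_simp
  simp only [abs_one, Real.one_rpow, one_mul, one_pow, integral_const, probReal_univ, smul_eq_mul,
    mul_one, abs_norm, h1e, hpp] at hH1
  simp only [abs_norm, h1e, hpp] at hH
  rw [← hT] at hH hH1
  -- variance
  obtain ⟨S, hS⟩ : ∃ S, S = ∫ x, (f x - m) ^ 2 ∂μ := ⟨_, rfl⟩
  have hS0 : 0 ≤ S := by rw [hS]; exact integral_nonneg fun x => sq_nonneg _
  have if1 : Integrable f μ := int_of_bdd hfc hM
  have if2 : Integrable (fun x => f x ^ 2) μ := int_of_bdd (by fun_prop) (M := M ^ 2) fun x => by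
    rw [abs_pow]; exact pow_le_pow_left₀ (abs_nonneg _) (hM x) 2
  have hSv : S = (∫ x, f x ^ 2 ∂μ) - (∫ x, f x ∂μ) ^ 2 := by
    have : ∀ x, (f x - m) ^ 2 = f x ^ 2 - 2 * m * f x + m ^ 2 := fun x => by ring
    have j1 : Integrable (fun x => 2 * m * f x) μ := if1.const_mul _
    have j2 : Integrable (fun x => f x ^ 2 - 2 * m * f x) μ := if2.sub j1
    have j3 : ∫ x, (f x - m) ^ 2 ∂μ = ∫ x, (f x ^ 2 - 2 * m * f x + m ^ 2) ∂μ :=
      integral_congr_ae (Eventually.of_forall this)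
    rw [hS, j3, integral_add j2 (integrable_const _), integral_sub if2 j1, integral_const_mul,
      ← hm]
    simp; ring
  have hSle : S ≤ κ * T := by
    rw [hSv]
    exact (hP f hf hc).trans (mul_le_mul_of_nonneg_left hH1 hκ)
  have hb := step_b hP hκ he he1 hf hc m
  rw [← hS] at hb hH
  set A : ℝ := κ * T with hA
  have hA0 : 0 ≤ A := by positivity
  have hmom : ∫ x, |f x - m| ^ (2 + 2 * e) ∂μ ≤ 5 * A ^ (1 + e) := by
    have q1 : S ^ (1 + e) ≤ A ^ (1 + e) := Real.rpow_le_rpow hS0 hSle (by linarith)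
    have q2 : S ^ e ≤ A ^ e := Real.rpow_le_rpow hS0 hSle he.le
    have q3 : A ^ e * A = A ^ (1 + e) := by
      rw [add_comm, Real.rpow_add_one' hA0 (by linarith)]
    have q4 : ∫ x, |f x - m| ^ (2 * e) * ‖gradient f x‖ ^ 2 ∂μ ≤ A ^ e * T :=
      hH.trans (mul_le_mul_of_nonneg_right q2 hT0)
    have q5 : κ * ((1 + e) ^ 2 * ∫ x, |f x - m| ^ (2 * e) * ‖gradient f x‖ ^ 2 ∂μ) ≤
        4 * A ^ (1 + e) := by
      have q6 : (1 + e) ^ 2 * ∫ x, |f x - m| ^ (2 * e) * ‖gradient f x‖ ^ 2 ∂μ ≤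
          4 * (A ^ e * T) := by
        have q7 : (1 + e) ^ 2 ≤ 4 := by nlinarith
        have q8 : 0 ≤ ∫ x, |f x - m| ^ (2 * e) * ‖gradient f x‖ ^ 2 ∂μ :=
          integral_nonneg fun x => by positivity
        exact mul_le_mul q7 q4 q8 (by norm_num)
      calc κ * ((1 + e) ^ 2 * ∫ x, |f x - m| ^ (2 * e) * ‖gradient f x‖ ^ 2 ∂μ)
          ≤ κ * (4 * (A ^ e * T)) := mul_le_mul_of_nonneg_left q6 hκ
        _ = 4 * (A ^ e * A) := by rw [hA]; ring
        _ = 4 * A ^ (1 + e) := by rw [q3]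
    linarith
  have hint : Integrable (fun x => |f x - m| ^ (2 + 2 * e)) μ := by
    refine int_of_bdd (M := (M + |m|) ^ (2 + 2 * e))
      ((Real.continuous_rpow_const (by linarith)).comp (by fun_prop)) fun x => ?_
    rw [abs_of_nonneg (Real.rpow_nonneg (abs_nonneg _) _)]
    exact Real.rpow_le_rpow (abs_nonneg _) (hFb x) (by linarith)
  -- conclusion
  have hfin : ∀ d : ℝ, 0 < d → Entropy μ (fun x => f x ^ 2) ≤ 40 / e * (5 * A + d) := by
    intro d hd
    have hN0 : 0 < 5 * A + d := by positivity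
    have hN : 0 < √(5 * A + d) := Real.sqrt_pos.mpr hN0
    have h1 := Gen.entropy_le μ he he1.le hf.continuous.aestronglyMeasurable (c := m) hN hint ?_
    · rwa [Real.sq_sqrt hN0.le] at h1
    · refine hmom.trans ?_
      have r1 : √(5 * A + d) ^ (2 + 2 * e) = (5 * A + d) ^ (1 + e) := by
        rw [Real.sqrt_eq_rpow, ← Real.rpow_mul hN0.le]
        congr 1; ring
      rw [r1]
      have r2 : (5 * A) ^ (1 + e) ≤ (5 * A + d) ^ (1 + e) :=
        Real.rpow_le_rpow (by positivity) (by linarith) (by linarith)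
      have r3 : (5 * A) ^ (1 + e) = 5 ^ (1 + e) * A ^ (1 + e) :=
        Real.mul_rpow (by norm_num) hA0
      have r4 : (5:ℝ) ≤ 5 ^ (1 + e) := by
        calc (5:ℝ) = 5 ^ (1:ℝ) := (Real.rpow_one 5).symm
          _ ≤ 5 ^ (1 + e) := Real.rpow_le_rpow_of_exponent_le (by norm_num) (by linarith)
      have r5 : 5 * A ^ (1 + e) ≤ 5 ^ (1 + e) * A ^ (1 + e) :=
        mul_le_mul_of_nonneg_right r4 (Real.rpow_nonneg hA0 _)
      linarith
  have hlim : Entropy μ (fun x => f x ^ 2) ≤ 40 / e * (5 * A) := by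
    have hc1 : Continuous fun d : ℝ => 40 / e * (5 * A + d) := by fun_prop
    have h1 : Tendsto (fun d : ℝ => 40 / e * (5 * A + d)) (𝓝[>] 0) (𝓝 (40 / e * (5 * A + 0))) :=
      (hc1.tendsto 0).mono_left nhdsWithin_le_nhds
    rw [add_zero] at h1
    refine ge_of_tendsto h1 ?_
    filter_upwards [self_mem_nhdsWithin] with d hd
    exact hfin d hd
  refine hlim.trans (le_of_eq ?_)
  rw [hie, hA]; ring

end

end Vale.Agent.P245.H847.Lp
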