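import Vale.Agent.P245.H895.QuadM
import Vale.Agent.P245.H339.Cor
import Vale.Agent.P245.H847.LpGrad

/-!
P245: the text of the hand-in from the affine invariant Poincaré inequality.
-/

open MeasureTheory Matrix
open scoped ContDiff

namespace Vale.Agent.P245.H847

open Vale.Agent.P245

/-- what follows from the Poincaré inequality with constant `C Λ` -/
theorem block {n : ℕ} {μ : Measure (EuclideanSpace ℝ (Fin n))} [IsProbabilityMeasure μ] {C Λ : ℝ}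
    (hC : 0 < C) (hΛ0 : 0 ≤ Λ)
    (hP : ∀ u : EuclideanSpace ℝ (Fin n) → ℝ, ContDiff ℝ ∞ u → HasCompactSupport u →
      (∫ x, u x ^ 2 ∂μ) - (∫ x, u x ∂μ) ^ 2 ≤ C * Λ * ∫ x, ‖gradient u x‖ ^ 2 ∂μ)
    {f : EuclideanSpace ℝ (Fin n) → ℝ} (hf : ContDiff ℝ ∞ f) (hfc : HasCompactSupport f) :
    (∫ x, f x ^ 2 ∂μ) - (∫ x, f x ∂μ) ^ 2 ≤ 200 * C * Λ * ∫ x, ‖gradient f x‖ ^ 2 ∂μ ∧
    (∀ R : ℝ, 1 ≤ R → (∀ x, f x ^ 2 ≤ R * ∫ y, f y ^ 2 ∂μ) →
      Entropy μ (fun x => f x ^ 2) ≤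
        200 * C * (1 + Real.log R) * Λ * ∫ x, ‖gradient f x‖ ^ 2 ∂μ) ∧
    (∀ p : ℝ, 2 < p →
      Entropy μ (fun x => f x ^ 2) ≤
        200 * C * (p / (p - 2)) * Λ * (∫ x, ‖gradient f x‖ ^ p ∂μ) ^ (2 / p)) := by
  have hG : 0 ≤ ∫ x, ‖gradient f x‖ ^ 2 ∂μ := integral_nonneg fun x => by positivity
  have hCL : 0 ≤ C * Λ := by positivity
  refine ⟨?_, fun R hR hfR => ?_, fun p hp => ?_⟩
  · refine (hP f hf hfc).trans ?_
    have : 0 ≤ C * Λ * ∫ x, ‖gradient f x‖ ^ 2 ∂μ := mul_nonneg hCL hG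
    nlinarith
  · refine (C339.cor hCL hP hf hfc hR hfR).trans ?_
    have h1 : 0 ≤ Real.log R := Real.log_nonneg hR
    have h2 : 0 ≤ (1 + Real.log R) * (C * Λ) * ∫ x, ‖gradient f x‖ ^ 2 ∂μ :=
      mul_nonneg (mul_nonneg (by linarith) hCL) hG
    nlinarith
  · refine (Lp.main hP hCL hp hf hfc).trans (le_of_eq ?_)
    ring

theorem handin {C : ℝ} (hC : 0 < C)
    (h : ∀ (n : ℕ) (μ : Measure (EuclideanSpace ℝ (Fin n))) [IsProbabilityMeasure μ],
      HasLogConcaveDensity μ → ∀ (b : Fin n → ℝ) (K : Matrix (Fin n) (Fin n) ℝ),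
      (∀ i, ∫ x, x i ∂μ = b i) → (∀ i j, ∫ x, (x i - b i) * (x j - b j) ∂μ = K i j) →
      ∀ f : EuclideanSpace ℝ (Fin n) → ℝ, ContDiff ℝ ∞ f → HasCompactSupport f →
        (∫ x, f x ^ 2 ∂μ) - (∫ x, f x ∂μ) ^ 2 ≤
          C * ∫ x, ∑ i, ∑ j, K i j * (gradient f x i * gradient f x j) ∂μ) :
    ∀ (n : ℕ) (μ : Measure (EuclideanSpace ℝ (Fin n))) [IsProbabilityMeasure μ],
      HasLogConcaveDensity μ →
      ∀ (b : Fin n → ℝ) (K : Matrix (Fin n) (Fin n) ℝ), (∀ i, ∫ x, x i ∂μ = b i) →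
      (∀ i j, ∫ x, (x i - b i) * (x j - b j) ∂μ = K i j) →
      ∀ f : EuclideanSpace ℝ (Fin n) → ℝ, ContDiff ℝ ∞ f → HasCompactSupport f →
        -- (1) affine invariant form
        (∫ x, f x ^ 2 ∂μ) - (∫ x, f x ∂μ) ^ 2 ≤
          200 * C * ∫ x, ∑ i, ∑ j, K i j * (gradient f x i * gradient f x j) ∂μ ∧
        -- (2) `Λ` = any upper bound of the covariance matrix
        (∀ Λ : ℝ, 0 ≤ Λ → (∀ v : Fin n → ℝ, v ⬝ᵥ (K *ᵥ v) ≤ Λ * ∑ i, v i ^ 2) →
          (∫ x, f x ^ 2 ∂μ) - (∫ x, f x ∂μ) ^ 2 ≤ 200 * C * Λ * ∫ x, ‖gradient f x‖ ^ 2 ∂μ ∧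
          (∀ R : ℝ, 1 ≤ R → (∀ x, f x ^ 2 ≤ R * ∫ y, f y ^ 2 ∂μ) →
            Entropy μ (fun x => f x ^ 2) ≤
              200 * C * (1 + Real.log R) * Λ * ∫ x, ‖gradient f x‖ ^ 2 ∂μ) ∧
          (∀ p : ℝ, 2 < p →
            Entropy μ (fun x => f x ^ 2) ≤
              200 * C * (p / (p - 2)) * Λ * (∫ x, ‖gradient f x‖ ^ p ∂μ) ^ (2 / p))) ∧
        -- (3) `μ` linearly `a`-subgaussian
        (∀ a : ℝ, 0 < a → LinearlySubgaussian μ a →
          (∫ x, f x ^ 2 ∂μ) - (∫ x, f x ∂μ) ^ 2 ≤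
            200 * C * a ^ 2 * ∫ x, ‖gradient f x‖ ^ 2 ∂μ ∧
          (∀ R : ℝ, 1 ≤ R → (∀ x, f x ^ 2 ≤ R * ∫ y, f y ^ 2 ∂μ) →
            Entropy μ (fun x => f x ^ 2) ≤
              200 * C * (1 + Real.log R) * a ^ 2 * ∫ x, ‖gradient f x‖ ^ 2 ∂μ) ∧
          (∀ p : ℝ, 2 < p →
            Entropy μ (fun x => f x ^ 2) ≤
              200 * C * (p / (p - 2)) * a ^ 2 * (∫ x, ‖gradient f x‖ ^ p ∂μ) ^ (2 / p))) := by
  intro n μ _ hlc b K hb hK f hf hfc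
  have key : ∀ Λ : ℝ, (∀ v : Fin n → ℝ, v ⬝ᵥ (K *ᵥ v) ≤ Λ * ∑ i, v i ^ 2) →
      ∀ u : EuclideanSpace ℝ (Fin n) → ℝ, ContDiff ℝ ∞ u → HasCompactSupport u →
        (∫ x, u x ^ 2 ∂μ) - (∫ x, u x ∂μ) ^ 2 ≤ C * Λ * ∫ x, ‖gradient u x‖ ^ 2 ∂μ := by
    intro Λ hΛ u hu huc
    have hgc : Continuous (gradient u) := by
      have h1 : Continuous (fderiv ℝ u) := hu.continuous_fderiv (by simp)
      exact (InnerProductSpace.toDual ℝ (EuclideanSpace ℝ (Fin n))).symm.continuous.comp h1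
    have hgs : HasCompactSupport (gradient u) := by
      have h1 : HasCompactSupport (fderiv ℝ u) := huc.fderiv ℝ
      refine h1.comp_left (g := (InnerProductSpace.toDual ℝ (EuclideanSpace ℝ (Fin n))).symm) ?_
      exact map_zero _
    have hi1 : Integrable (fun x => ‖gradient u x‖ ^ 2) μ := by
      refine Continuous.integrable_of_hasCompactSupport (by fun_prop) ?_
      exact hgs.comp_left (g := fun y : EuclideanSpace ℝ (Fin n) => ‖y‖ ^ 2) (by simp)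
    have hci : ∀ i, Continuous fun x => gradient u x i := fun i => by fun_prop
    have hi2 : Integrable (fun x => ∑ i, ∑ j, K i j * (gradient u x i * gradient u x j)) μ := by
      refine Continuous.integrable_of_hasCompactSupport ?_ ?_
      · exact continuous_finsetSum _ fun i _ => continuous_finsetSum _ fun j _ =>
          continuous_const.mul ((hci i).mul (hci j))
      · exact hgs.comp_left (g := fun y : EuclideanSpace ℝ (Fin n) =>
          ∑ i, ∑ j, K i j * (y i * y j)) (by simp)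
    refine (h n μ hlc b K hb hK u hu huc).trans ?_
    rw [mul_assoc]
    refine mul_le_mul_of_nonneg_left ?_ hC.le
    rw [← integral_const_mul]
    refine integral_mono hi2 (hi1.const_mul _) fun x => ?_
    have h3 := hΛ (fun i => gradient u x i)
    have e1 : (fun i => gradient u x i) ⬝ᵥ (K *ᵥ fun i => gradient u x i) =
        ∑ i, ∑ j, K i j * (gradient u x i * gradient u x j) := by
      simp only [dotProduct, mulVec, Finset.mul_sum]
      exact Finset.sum_congr rfl fun i _ => Finset.sum_congr rfl fun j _ => by ring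
    have e2 : ∑ i, (gradient u x i) ^ 2 = ‖gradient u x‖ ^ 2 := by
      rw [EuclideanSpace.norm_sq_eq]
      exact Finset.sum_congr rfl fun i _ => by rw [Real.norm_eq_abs, sq_abs]
    rw [e1, e2] at h3
    exact h3
  have h0 := h n μ hlc b K hb hK f hf hfc
  have hv0 : 0 ≤ (∫ x, f x ^ 2 ∂μ) - (∫ x, f x ∂μ) ^ 2 := by
    obtain ⟨M, -, hM⟩ := Lp.exists_bd hf.continuous hfc
    have i1 : Integrable f μ := Lp.int_of_bdd hf.continuous hM
    have i2 : Integrable (fun x => f x ^ 2) μ :=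
      Lp.int_of_bdd (by have := hf.continuous; fun_prop) (M := M ^ 2) fun x => by
        rw [abs_pow]; exact pow_le_pow_left₀ (abs_nonneg _) (hM x) 2
    obtain ⟨m, hm⟩ : ∃ m, m = ∫ x, f x ∂μ := ⟨_, rfl⟩
    have j1 : Integrable (fun x => 2 * m * f x) μ := i1.const_mul _
    have j2 : Integrable (fun x => f x ^ 2 - 2 * m * f x) μ := i2.sub j1
    have j3 : 0 ≤ ∫ x, (f x ^ 2 - 2 * m * f x + m ^ 2) ∂μ :=
      integral_nonneg fun x => by
        show (0:ℝ) ≤ f x ^ 2 - 2 * m * f x + m ^ 2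
        nlinarith [sq_nonneg (f x - m)]
    rw [integral_add j2 (integrable_const _), integral_sub i2 j1, integral_const_mul, ← hm] at j3
    simp only [integral_const, probReal_univ, smul_eq_mul, one_mul] at j3
    rw [← hm]
    nlinarith
  have h01 : (∫ x, f x ^ 2 ∂μ) - (∫ x, f x ∂μ) ^ 2 ≤
      200 * C * ∫ x, ∑ i, ∑ j, K i j * (gradient f x i * gradient f x j) ∂μ := by
    nlinarith
  refine ⟨h01, fun Λ hΛ0 hΛ => block hC hΛ0 (key Λ hΛ) hf hfc, fun a ha hsub => ?_⟩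
  refine block hC (sq_nonneg a) (key (a ^ 2) fun v => ?_) hf hfc
  refine (Q895.sub_cov hlc ha hsub hb hK v).trans ?_
  have h5 : Real.log 2 ≤ 1 := by
    have := Real.log_two_lt_d9
    linarith
  have h6 : 0 ≤ ∑ i, v i ^ 2 := Finset.sum_nonneg fun i _ => sq_nonneg _
  have h7 : Real.log 2 * a ^ 2 ≤ a ^ 2 := by nlinarith [sq_nonneg a]
  exact mul_le_mul_of_nonneg_right h7 h6

end Vale.Agent.P245.H847
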