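import Vale.Agent.P245.H607.Final

/-!
P245: lower tails of convex Lipschitz functions and the set form.
-/

open MeasureTheory
open scoped ContDiff

namespace Vale.Agent.P245.H847

open Vale.Agent.P245

theorem convexOn_infDist {E : Type*} [NormedAddCommGroup E] [NormedSpace ℝ E] {s : Set E}
    (hs : Convex ℝ s) (hne : s.Nonempty) : ConvexOn ℝ Set.univ (fun x => Metric.infDist x s) := by
  refine ⟨convex_univ, fun x _ y _ a b ha hb hab => ?_⟩
  refine le_of_forall_pos_le_add fun ε hε => ?_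
  obtain ⟨z, hz, hxz⟩ := (Metric.infDist_lt_iff hne).1 (lt_add_of_pos_right (Metric.infDist x s) hε)
  obtain ⟨w, hw, hyw⟩ := (Metric.infDist_lt_iff hne).1 (lt_add_of_pos_right (Metric.infDist y s) hε)
  have hm : a • z + b • w ∈ s := hs hz hw ha hb hab
  have e : a • x + b • y - (a • z + b • w) = a • (x - z) + b • (y - w) := by module
  calc Metric.infDist (a • x + b • y) s ≤ dist (a • x + b • y) (a • z + b • w) :=
        Metric.infDist_le_dist_of_mem hm
    _ ≤ a * dist x z + b * dist y w := by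
        rw [dist_eq_norm, dist_eq_norm, dist_eq_norm, e]
        refine (norm_add_le _ _).trans (le_of_eq ?_)
        rw [norm_smul, norm_smul, Real.norm_of_nonneg ha, Real.norm_of_nonneg hb]
    _ ≤ a * (Metric.infDist x s + ε) + b * (Metric.infDist y s + ε) :=
        add_le_add (mul_le_mul_of_nonneg_left hxz.le ha) (mul_le_mul_of_nonneg_left hyw.le hb)
    _ = a • Metric.infDist x s + b • Metric.infDist y s + (a + b) * ε := by
        simp only [smul_eq_mul]; ring
    _ = _ := by rw [hab, one_mul]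

variable {n : ℕ} {μ : Measure (EuclideanSpace ℝ (Fin n))} {F : EuclideanSpace ℝ (Fin n) → ℝ}

theorem tail [IsProbabilityMeasure μ] {a C0 : ℝ} (ha : 0 < a) (hC0 : 0 < C0) (hK : H607.KLS C0)
    (hlc : HasLogConcaveDensity μ) (hsub : LinearlySubgaussian μ a)
    (hF : LipschitzWith 1 F) (hconvF : ConvexOn ℝ Set.univ F) {t : ℝ} (ht : 0 ≤ t) :
    μ.real {x | F x ≤ (∫ y, F y ∂μ) - t} ≤
      Real.exp (-(t ^ 2 / (4 * (8 * C0 + 26) * a ^ 2))) := by
  obtain ⟨c, hc⟩ : ∃ c, c = (8 * C0 + 26) * a ^ 2 := ⟨_, rfl⟩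
  have hcpos : 0 < c := by rw [hc]; positivity
  obtain ⟨m, hm⟩ : ∃ m, m = ∫ y, F y ∂μ := ⟨_, rfl⟩
  obtain ⟨s, hs⟩ : ∃ s, s = t / (2 * c) := ⟨_, rfl⟩
  have hs0 : 0 ≤ s := by rw [hs]; positivity
  have h1 := H607.conc ha hC0 hK hlc hsub hF hconvF hs0
  rw [← hc, ← hm] at h1
  have hint : Integrable (fun x => Real.exp (-s * (F x - m))) μ := by
    have := (H767.tilt_int ha hsub hF s).mul_const (Real.exp (s * m))
    refine this.congr (Filter.Eventually.of_forall fun x => ?_)
    simp only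
    rw [← Real.exp_add]
    congr 1; ring
  have h2 := mul_meas_ge_le_integral_of_nonneg
    (Filter.Eventually.of_forall fun x => (Real.exp_pos (-s * (F x - m))).le) hint
    (Real.exp (s * t))
  have h3 : μ.real {x | F x ≤ m - t} ≤
      μ.real {x | Real.exp (s * t) ≤ Real.exp (-s * (F x - m))} := by
    refine measureReal_mono (fun x hx => ?_) (measure_ne_top _ _)
    simp only [Set.mem_setOf_eq] at hx ⊢
    refine Real.exp_le_exp.2 ?_
    have : s * t ≤ s * (m - F x) := mul_le_mul_of_nonneg_left (by linarith only [hx]) hs0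
    linarith only [this]
  have h4 : Real.exp (s * t) * μ.real {x | F x ≤ m - t} ≤ Real.exp (c * s ^ 2) :=
    (mul_le_mul_of_nonneg_left h3 (Real.exp_pos _).le).trans (h2.trans h1)
  rw [← hm]
  have h5 : μ.real {x | F x ≤ m - t} ≤ Real.exp (c * s ^ 2 - s * t) := by
    rw [Real.exp_sub, le_div_iff₀ (Real.exp_pos _), mul_comm]
    exact h4
  refine h5.trans (Real.exp_le_exp.2 (le_of_eq ?_))
  have e : 4 * (8 * C0 + 26) * a ^ 2 = 4 * c := by rw [hc]; ring
  rw [e, hs]
  field_simp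
  ring

theorem tail_set [IsProbabilityMeasure μ] {a C0 : ℝ} (ha : 0 < a) (hC0 : 0 < C0)
    (hK : H607.KLS C0) (hlc : HasLogConcaveDensity μ) (hsub : LinearlySubgaussian μ a)
    {Ω : Set (EuclideanSpace ℝ (Fin n))} (hΩ : Convex ℝ Ω) (hne : Ω.Nonempty) :
    μ.real Ω ≤ Real.exp (-((∫ x, Metric.infDist x Ω ∂μ) ^ 2 / (4 * (8 * C0 + 26) * a ^ 2))) := by
  have h0 : 0 ≤ ∫ x, Metric.infDist x Ω ∂μ := integral_nonneg fun x => Metric.infDist_nonneg
  refine le_trans ?_ (tail ha hC0 hK hlc hsub (Metric.lipschitz_infDist_pt Ω)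
    (convexOn_infDist hΩ hne) h0)
  refine measureReal_mono (fun x hx => ?_) (measure_ne_top _ _)
  simp only [Set.mem_setOf_eq, sub_self]
  rw [Metric.infDist_zero_of_mem hx]

end Vale.Agent.P245.H847
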