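import Vale.Agent.P245.H895.QuadS
import Vale.Agent.P245.H607.Final
import Vale.Agent.P245.H847.Tail
import Vale.Agent.P245.H847.HandIn

/-!
P245: the text of the hand-in from the affine invariant Poincaré inequality, second version.
-/

open MeasureTheory Matrix
open scoped ContDiff

namespace Vale.Agent.P245.H847

open Vale.Agent.P245

theorem up3 {c C l A I x : ℝ} (h : x ≤ c * l * A * I) (hc : c ≤ C) (hl : 0 ≤ l) (hA : 0 ≤ A)
    (hI : 0 ≤ I) : x ≤ C * l * A * I := h.trans (by gcongr)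

theorem up2 {c C A I x : ℝ} (h : x ≤ c * A * I) (hc : c ≤ C) (hA : 0 ≤ A)
    (hI : 0 ≤ I) : x ≤ C * A * I := h.trans (by gcongr)

theorem up1 {c C I x : ℝ} (h : x ≤ c * I) (hc : c ≤ C) (hI : 0 ≤ I) : x ≤ C * I :=
  h.trans (by gcongr)

theorem handin2
    (h : ∃ C : ℝ, 0 < C ∧ ∀ (n : ℕ) (μ : Measure (EuclideanSpace ℝ (Fin n))) [IsProbabilityMeasure μ],
      HasLogConcaveDensity μ → ∀ (b : Fin n → ℝ) (K : Matrix (Fin n) (Fin n) ℝ),
      (∀ i, ∫ x, x i ∂μ = b i) → (∀ i j, ∫ x, (x i - b i) * (x j - b j) ∂μ = K i j) →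
      ∀ f : EuclideanSpace ℝ (Fin n) → ℝ, ContDiff ℝ ∞ f → HasCompactSupport f →
        (∫ x, f x ^ 2 ∂μ) - (∫ x, f x ∂μ) ^ 2 ≤
          C * ∫ x, ∑ i, ∑ j, K i j * (gradient f x i * gradient f x j) ∂μ) :
    ∃ C : ℝ, 0 < C ∧ ∀ (n : ℕ) (μ : Measure (EuclideanSpace ℝ (Fin n))) [IsProbabilityMeasure μ],
      HasLogConcaveDensity μ →
      -- (1) the Poincaré inequality, affine invariant form
      (∀ (b : Fin n → ℝ) (K : Matrix (Fin n) (Fin n) ℝ), (∀ i, ∫ x, x i ∂μ = b i) →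
        (∀ i j, ∫ x, (x i - b i) * (x j - b j) ∂μ = K i j) →
        ∀ f : EuclideanSpace ℝ (Fin n) → ℝ, ContDiff ℝ ∞ f → HasCompactSupport f →
          (∫ x, f x ^ 2 ∂μ) - (∫ x, f x ∂μ) ^ 2 ≤
            C * ∫ x, ∑ i, ∑ j, K i j * (gradient f x i * gradient f x j) ∂μ ∧
          -- (2) `Λ` = any upper bound of the covariance matrix
          (∀ Λ : ℝ, 0 ≤ Λ → (∀ v : Fin n → ℝ, v ⬝ᵥ (K *ᵥ v) ≤ Λ * ∑ i, v i ^ 2) →
            (∫ x, f x ^ 2 ∂μ) - (∫ x, f x ∂μ) ^ 2 ≤ C * Λ * ∫ x, ‖gradient f x‖ ^ 2 ∂μ ∧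
            (∀ R : ℝ, 1 ≤ R → (∀ x, f x ^ 2 ≤ R * ∫ y, f y ^ 2 ∂μ) →
              Entropy μ (fun x => f x ^ 2) ≤
                C * (1 + Real.log R) * Λ * ∫ x, ‖gradient f x‖ ^ 2 ∂μ) ∧
            (∀ p : ℝ, 2 < p →
              Entropy μ (fun x => f x ^ 2) ≤
                C * (p / (p - 2)) * Λ * (∫ x, ‖gradient f x‖ ^ p ∂μ) ^ (2 / p)))) ∧
      -- linearly `a`-subgaussian measures
      (∀ a : ℝ, 0 < a → LinearlySubgaussian μ a →
        -- (3) all compactly supported smooth functions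
        (∀ f : EuclideanSpace ℝ (Fin n) → ℝ, ContDiff ℝ ∞ f → HasCompactSupport f →
          (∫ x, f x ^ 2 ∂μ) - (∫ x, f x ∂μ) ^ 2 ≤ C * a ^ 2 * ∫ x, ‖gradient f x‖ ^ 2 ∂μ ∧
          (∀ R : ℝ, 1 ≤ R → (∀ x, f x ^ 2 ≤ R * ∫ y, f y ^ 2 ∂μ) →
            Entropy μ (fun x => f x ^ 2) ≤
              C * (1 + Real.log R) * a ^ 2 * ∫ x, ‖gradient f x‖ ^ 2 ∂μ) ∧
          (∀ k : ℝ, 1 ≤ k →
            ∫ x, (f x - ∫ y, f y ∂μ) ^ 4 ∂μ ≤ k * (∫ x, (f x - ∫ y, f y ∂μ) ^ 2 ∂μ) ^ 2 →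
            Entropy μ (fun x => f x ^ 2) ≤
              C * (1 + Real.log k) * a ^ 2 * ∫ x, ‖gradient f x‖ ^ 2 ∂μ) ∧
          (∀ p : ℝ, 2 < p →
            Entropy μ (fun x => f x ^ 2) ≤
              C * (p / (p - 2)) * a ^ 2 * (∫ x, ‖gradient f x‖ ^ p ∂μ) ^ (2 / p))) ∧
        -- (4) polynomials of degree at most `d`
        (∀ (d : ℕ) (q : MvPolynomial (Fin n) ℝ), q.totalDegree ≤ d →
          ∀ f : EuclideanSpace ℝ (Fin n) → ℝ, (∀ x, f x = MvPolynomial.eval (fun i => x i) q) →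
            Entropy μ (fun x => f x ^ 2) ≤
              C * (d + 1) * a ^ 2 * ∫ x, ‖gradient f x‖ ^ 2 ∂μ) ∧
        -- (5) sub-Gaussian lower tails of all convex 1-Lipschitz functions
        (∀ F : EuclideanSpace ℝ (Fin n) → ℝ, LipschitzWith 1 F → ConvexOn ℝ Set.univ F →
          ∀ t : ℝ, 0 ≤ t →
            ∫ x, Real.exp (-t * (F x - ∫ y, F y ∂μ)) ∂μ ≤ Real.exp (C * a ^ 2 * t ^ 2) ∧
            μ.real {x | F x ≤ (∫ y, F y ∂μ) - t} ≤ Real.exp (-(t ^ 2 / (C * a ^ 2)))) ∧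
        -- (6) Gaussian concentration for all convex sets
        (∀ Ω : Set (EuclideanSpace ℝ (Fin n)), Convex ℝ Ω → Ω.Nonempty →
          μ.real Ω ≤ Real.exp (-((∫ x, Metric.infDist x Ω ∂μ) ^ 2 / (C * a ^ 2))))) := by
  obtain ⟨C₂, hC₂, h₂⟩ := Q895.poly_of h
  obtain ⟨C, hC, h₁⟩ := h
  have hmain := handin hC h₁
  have e1 : 200 * C ≤ 200 * C + C₂ + 104 := by linarith only [hC₂]
  have e2 : C₂ ≤ 200 * C + C₂ + 104 := by linarith only [hC]
  have e3 : 8 * C + 26 ≤ 200 * C + C₂ + 104 := by linarith only [hC, hC₂]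
  have e4 : 4 * (8 * C + 26) ≤ 200 * C + C₂ + 104 := by linarith only [hC, hC₂]
  refine ⟨200 * C + C₂ + 104, by positivity, fun n μ _ hlc => ⟨fun b K hb hK f hf hfc => ?_,
    fun a ha hsub => ⟨fun f hf hfc => ?_, fun d q hq f hfq => ?_, fun F hF hFc t ht => ⟨?_, ?_⟩,
      fun Ω hΩ hne => ?_⟩⟩⟩
  · obtain ⟨m1, m2, -⟩ := hmain n μ hlc b K hb hK f hf hfc
    have hI : 0 ≤ ∫ x, ‖gradient f x‖ ^ 2 ∂μ := integral_nonneg fun x => by positivity
    have hvar : 0 ≤ (∫ x, f x ^ 2 ∂μ) - (∫ x, f x ∂μ) ^ 2 := by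
      obtain ⟨M, -, hM⟩ := Lp.exists_bd hf.continuous hfc
      have i1 : Integrable f μ := Lp.int_of_bdd hf.continuous hM
      have i2 : Integrable (fun x => f x ^ 2) μ :=
        Lp.int_of_bdd (by have := hf.continuous; fun_prop) (M := M ^ 2) fun x => by
          rw [abs_pow]; exact pow_le_pow_left₀ (abs_nonneg _) (hM x) 2
      obtain ⟨m, hm⟩ : ∃ m, m = ∫ x, f x ∂μ := ⟨_, rfl⟩
      have j1 : Integrable (fun x => 2 * m * f x) μ := i1.const_mul _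
      have j2 : Integrable (fun x => f x ^ 2 - 2 * m * f x) μ := i2.sub j1
      have j3 : 0 ≤ ∫ x, (f x ^ 2 - 2 * m * f x + m ^ 2) ∂μ :=
        integral_nonneg fun x => by
          show (0:ℝ) ≤ f x ^ 2 - 2 * m * f x + m ^ 2
          nlinarith [sq_nonneg (f x - m)]
      rw [integral_add j2 (integrable_const _), integral_sub i2 j1, integral_const_mul, ← hm] at j3
      simp only [integral_const, probReal_univ, smul_eq_mul, one_mul] at j3
      rw [← hm]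
      nlinarith
    have hv0 : 0 ≤ ∫ x, ∑ i, ∑ j, K i j * (gradient f x i * gradient f x j) ∂μ := by
      refine le_of_mul_le_mul_left ?_ hC
      rw [mul_zero]
      exact hvar.trans (h₁ n μ hlc b K hb hK f hf hfc)
    refine ⟨up1 m1 e1 hv0, fun Λ hΛ0 hΛ => ?_⟩
    obtain ⟨a1, a2, a3⟩ := m2 Λ hΛ0 hΛ
    refine ⟨up2 a1 e1 hΛ0 hI, fun R hR hfR => ?_, fun p hp => ?_⟩
    · exact up3 (a2 R hR hfR) e1 (by have := Real.log_nonneg hR; linarith only [this]) hΛ0 hI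
    · exact up3 (a3 p hp) e1 (div_nonneg (by linarith only [hp]) (by linarith only [hp])) hΛ0
        (Real.rpow_nonneg (integral_nonneg fun x => by positivity) _)
  · obtain ⟨-, -, m3⟩ := hmain n μ hlc (fun i => ∫ x, x i ∂μ)
      (fun i j => ∫ x, (x i - ∫ x, x i ∂μ) * (x j - ∫ x, x j ∂μ) ∂μ) (fun i => rfl)
      (fun i j => rfl) f hf hfc
    obtain ⟨a1, a2, a3⟩ := m3 a ha hsub
    have hI : 0 ≤ ∫ x, ‖gradient f x‖ ^ 2 ∂μ := integral_nonneg fun x => by positivity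
    have ha2 : 0 ≤ a ^ 2 := sq_nonneg a
    refine ⟨up2 a1 e1 ha2 hI, fun R hR hfR => ?_, fun k hk hfk => ?_, fun p hp => ?_⟩
    · exact up3 (a2 R hR hfR) e1 (by have := Real.log_nonneg hR; linarith only [this]) ha2 hI
    · exact up3 ((h₂ n μ hlc a ha hsub).2 f hf hfc k hk hfk) e2
        (by have := Real.log_nonneg hk; linarith only [this]) ha2 hI
    · exact up3 (a3 p hp) e1 (div_nonneg (by linarith only [hp]) (by linarith only [hp])) ha2
        (Real.rpow_nonneg (integral_nonneg fun x => by positivity) _)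
  · exact up3 ((h₂ n μ hlc a ha hsub).1 d q hq f hfq) e2 (by positivity) (sq_nonneg a)
      (integral_nonneg fun x => by positivity)
  · refine (H607.conc ha hC h₁ hlc hsub hF hFc ht).trans (Real.exp_le_exp.2 ?_)
    exact up2 le_rfl e3 (sq_nonneg a) (sq_nonneg t)
  · exact (tail ha hC h₁ hlc hsub hF hFc ht).trans (Real.exp_le_exp.2 (by gcongr))
  · exact (tail_set ha hC h₁ hlc hsub hΩ hne).trans (Real.exp_le_exp.2 (by gcongr))

end Vale.Agent.P245.H847
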