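import Vale.Agent.P245.Defs

/-!
P245: named parts of the hand-in `DimensionFreePoincare`. In all of them `μ` is a probability
measure on `ℝ^n`.
-/

open MeasureTheory
open scoped ContDiff

namespace Vale.Agent.P245.DFP

open Vale.Agent.P245

variable {n : ℕ}

/-- Poincaré inequality in affine invariant form: `b` = barycentre, `K` = covariance matrix of `μ`;
`Var f ≤ C ∫ ⟨K ∇f, ∇f⟩ dμ` for all `f ∈ C_c^∞`. -/
def AffinePoincare (μ : Measure (EuclideanSpace ℝ (Fin n))) (C : ℝ) : Prop :=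
  ∀ (b : Fin n → ℝ) (K : Matrix (Fin n) (Fin n) ℝ), (∀ i, ∫ x, x i ∂μ = b i) →
    (∀ i j, ∫ x, (x i - b i) * (x j - b j) ∂μ = K i j) →
    ∀ f : EuclideanSpace ℝ (Fin n) → ℝ, ContDiff ℝ ∞ f → HasCompactSupport f →
      (∫ x, f x ^ 2 ∂μ) - (∫ x, f x ∂μ) ^ 2 ≤
        C * ∫ x, ∑ i, ∑ j, K i j * (gradient f x i * gradient f x j) ∂μ

/-- `Λ` is an upper bound of the covariance matrix of `μ`. -/
def CovarianceLE (μ : Measure (EuclideanSpace ℝ (Fin n))) (Λ : ℝ) : Prop :=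
  ∀ v : Fin n → ℝ,
    ∑ i, ∑ j, (∫ x, (x i - ∫ y, y i ∂μ) * (x j - ∫ y, y j ∂μ) ∂μ) * (v i * v j) ≤
      Λ * ∑ i, v i ^ 2

/-- Poincaré and logarithmic Sobolev type inequalities with constant `D`, for all
`f ∈ C_c^∞`. -/
def SmoothInequalities (μ : Measure (EuclideanSpace ℝ (Fin n))) (D : ℝ) : Prop :=
  ∀ f : EuclideanSpace ℝ (Fin n) → ℝ, ContDiff ℝ ∞ f → HasCompactSupport f →
    (∫ x, f x ^ 2 ∂μ) - (∫ x, f x ∂μ) ^ 2 ≤ D * ∫ x, ‖gradient f x‖ ^ 2 ∂μ ∧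
    Entropy μ (fun x => f x ^ 2) ≤
      D * ((∫ x, ‖gradient f x‖ ^ 2 ∂μ) + Entropy μ (fun x => ‖gradient f x‖ ^ 2)) ∧
    Entropy μ (fun x => f x ^ 2) ≤
      D * ∫ x, ‖gradient f x‖ ^ 2 * (1 + Real.log (1 + f x ^ 2 / ∫ y, f y ^ 2 ∂μ)) ∂μ ∧
    (∀ p : ℝ, 2 < p → Entropy μ (fun x => f x ^ 2) ≤
      D * (p / (p - 2)) * (∫ x, ‖gradient f x‖ ^ p ∂μ) ^ (2 / p))

/-- logarithmic Sobolev inequality with the factor `1 + log k` if the kurtosis of `f` is at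
most `k`. -/
def KurtosisLogSobolev (μ : Measure (EuclideanSpace ℝ (Fin n))) (D : ℝ) : Prop :=
  ∀ f : EuclideanSpace ℝ (Fin n) → ℝ, ContDiff ℝ ∞ f → HasCompactSupport f → ∀ k : ℝ, 1 ≤ k →
    ∫ x, (f x - ∫ y, f y ∂μ) ^ 4 ∂μ ≤ k * (∫ x, (f x - ∫ y, f y ∂μ) ^ 2 ∂μ) ^ 2 →
    Entropy μ (fun x => f x ^ 2) ≤ D * (1 + Real.log k) * ∫ x, ‖gradient f x‖ ^ 2 ∂μ

/-- logarithmic Sobolev inequality for polynomials of degree at most `d`, with the factor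
`d + 1`. -/
def PolynomialLogSobolev (μ : Measure (EuclideanSpace ℝ (Fin n))) (D : ℝ) : Prop :=
  ∀ (d : ℕ) (q : MvPolynomial (Fin n) ℝ), q.totalDegree ≤ d →
    ∀ f : EuclideanSpace ℝ (Fin n) → ℝ, (∀ x, f x = MvPolynomial.eval (fun i => x i) q) →
      Entropy μ (fun x => f x ^ 2) ≤ D * (d + 1) * ∫ x, ‖gradient f x‖ ^ 2 ∂μ

/-- `A` is a finite union of pairwise disjoint closed convex sets. -/
def FiniteConvexUnion (A : Set (EuclideanSpace ℝ (Fin n))) : Prop :=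
  ∃ (N : ℕ) (B : Fin N → Set (EuclideanSpace ℝ (Fin n))), (∀ i, Convex ℝ (B i)) ∧
    (∀ i, IsClosed (B i)) ∧ (∀ i j, i ≠ j → Disjoint (B i) (B j)) ∧ A = ⋃ i, B i

/-- the logarithmic Sobolev inequality for all `f ∈ C_c^∞` for which almost all superlevel sets
`{|f| ≥ t}`, `t > T`, are finite unions of pairwise disjoint closed convex sets (`T = 0` for all
quasi-concave `f ≥ 0`), with the factor `1 + log (1 + T² / ∫ f²)`. -/
def MultipeakLogSobolev (μ : Measure (EuclideanSpace ℝ (Fin n))) (D : ℝ) : Prop :=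
  ∀ f : EuclideanSpace ℝ (Fin n) → ℝ, ContDiff ℝ ∞ f → HasCompactSupport f →
    ∀ T : ℝ, 0 ≤ T → (∀ᵐ t : ℝ, T < t → FiniteConvexUnion {x | t ≤ |f x|}) →
      Entropy μ (fun x => f x ^ 2) ≤
        D * (1 + Real.log (1 + T ^ 2 / ∫ x, f x ^ 2 ∂μ)) * ∫ x, ‖gradient f x‖ ^ 2 ∂μ

/-- Gaussian isoperimetric inequality and Gaussian concentration for convex sets. -/
def ConvexIsoperimetry (μ : Measure (EuclideanSpace ℝ (Fin n))) (C a : ℝ) : Prop :=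
  (∀ A : Set (EuclideanSpace ℝ (Fin n)), Convex ℝ A → IsClosed A → 0 < μ.real A →
    μ.real A ≤ 1 / 2 → ∀ r : ℝ, 0 ≤ r → r ≤ a →
      μ.real A * (1 + r * √(Real.log (1 / μ.real A)) / (C * a)) ≤
        μ.real (Metric.cthickening r A)) ∧
  (∀ Ω : Set (EuclideanSpace ℝ (Fin n)), Convex ℝ Ω → Ω.Nonempty →
    μ.real Ω ≤ Real.exp (-((∫ x, Metric.infDist x Ω ∂μ) ^ 2 / (C * a ^ 2))))

/-- sub-Gaussian lower deviations of all convex 1-Lipschitz functions. -/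
def ConvexConcentration (μ : Measure (EuclideanSpace ℝ (Fin n))) (C a : ℝ) : Prop :=
  ∀ F : EuclideanSpace ℝ (Fin n) → ℝ, LipschitzWith 1 F → ConvexOn ℝ Set.univ F →
    ∀ t : ℝ, 0 ≤ t →
      ∫ x, Real.exp (-t * (F x - ∫ y, F y ∂μ)) ∂μ ≤ Real.exp (C * a ^ 2 * t ^ 2) ∧
      μ.real {x | F x ≤ (∫ y, F y ∂μ) - t} ≤ Real.exp (-(t ^ 2 / (C * a ^ 2)))

end Vale.Agent.P245.DFP
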