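import Vale.Agent.P245.H847.HandIn3
import Vale.Agent.P245.H847.Stmt2
import Vale.Agent.P245.H89.LogEnt

/-!
P245: the hand-in over named statements, second form.
-/

open MeasureTheory Matrix
open scoped ContDiff

namespace Vale.Agent.P245.H847

open Vale.Agent.P245

variable {n : ℕ} {μ : Measure (EuclideanSpace ℝ (Fin n))}

theorem log_form_nonneg (f : EuclideanSpace ℝ (Fin n) → ℝ) :
    0 ≤ ∫ x, ‖gradient f x‖ ^ 2 * (1 + Real.log (1 + f x ^ 2 / ∫ y, f y ^ 2 ∂μ)) ∂μ := by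
  refine integral_nonneg fun x => mul_nonneg (sq_nonneg _) ?_
  have h0 : 0 ≤ ∫ y, f y ^ 2 ∂μ := integral_nonneg fun x => sq_nonneg _
  have h1 : 0 ≤ f x ^ 2 / ∫ y, f y ^ 2 ∂μ := by positivity
  have h2 : 0 ≤ Real.log (1 + f x ^ 2 / ∫ y, f y ^ 2 ∂μ) :=
    Real.log_nonneg (by linarith only [h1])
  linarith only [h2]

theorem var_nonneg [IsProbabilityMeasure μ] {f : EuclideanSpace ℝ (Fin n) → ℝ}
    (hf : Continuous f) (hfc : HasCompactSupport f) :
    0 ≤ (∫ x, f x ^ 2 ∂μ) - (∫ x, f x ∂μ) ^ 2 := by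
  obtain ⟨M, -, hM⟩ := Lp.exists_bd hf hfc
  have i1 : Integrable f μ := Lp.int_of_bdd hf hM
  have i2 : Integrable (fun x => f x ^ 2) μ :=
    Lp.int_of_bdd (by fun_prop) (M := M ^ 2) fun x => by
      rw [abs_pow]; exact pow_le_pow_left₀ (abs_nonneg _) (hM x) 2
  obtain ⟨m, hm⟩ : ∃ m, m = ∫ x, f x ∂μ := ⟨_, rfl⟩
  have j1 : Integrable (fun x => 2 * m * f x) μ := i1.const_mul _
  have j2 : Integrable (fun x => f x ^ 2 - 2 * m * f x) μ := i2.sub j1
  have j3 : 0 ≤ ∫ x, (f x ^ 2 - 2 * m * f x + m ^ 2) ∂μ :=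
    integral_nonneg fun x => by
      show (0:ℝ) ≤ f x ^ 2 - 2 * m * f x + m ^ 2
      nlinarith [sq_nonneg (f x - m)]
  rw [integral_add j2 (integrable_const _), integral_sub i2 j1, integral_const_mul, ← hm] at j3
  simp only [integral_const, probReal_univ, smul_eq_mul, one_mul] at j3
  rw [← hm]
  nlinarith

/-- the inequalities for smooth functions, from a Poincaré inequality and the `L^p` form -/
theorem smooth_of [IsProbabilityMeasure μ] {P D : ℝ} (hP0 : 0 ≤ P) (hPD : 480 * P ≤ D)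
    (hP : ∀ f : EuclideanSpace ℝ (Fin n) → ℝ, ContDiff ℝ ∞ f → HasCompactSupport f →
      (∫ x, f x ^ 2 ∂μ) - (∫ x, f x ∂μ) ^ 2 ≤ P * ∫ x, ‖gradient f x‖ ^ 2 ∂μ)
    (hp : ∀ f : EuclideanSpace ℝ (Fin n) → ℝ, ContDiff ℝ ∞ f → HasCompactSupport f →
      ∀ p : ℝ, 2 < p → Entropy μ (fun x => f x ^ 2) ≤
        P * (p / (p - 2)) * (∫ x, ‖gradient f x‖ ^ p ∂μ) ^ (2 / p)) :
    DFP.SmoothInequalities μ D := by
  intro f hf hfc
  have hI : 0 ≤ ∫ x, ‖gradient f x‖ ^ 2 ∂μ := integral_nonneg fun x => by positivity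
  have hPD1 : P ≤ D := by linarith only [hP0, hPD]
  have hD0 : 0 ≤ D := hP0.trans hPD1
  refine ⟨(hP f hf hfc).trans (mul_le_mul_of_nonneg_right hPD1 hI), ?_, ?_, fun p hp2 => ?_⟩
  · have h1 := H89.ent_form hP0 hP hf hfc
    have h2 := H89.log_form hP0 hP hf hfc
    have h3 := log_form_nonneg (μ := μ) f
    refine h1.trans ?_
    obtain ⟨E, hE⟩ : ∃ E, E = (∫ x, ‖gradient f x‖ ^ 2 ∂μ) +
      Entropy μ (fun x => ‖gradient f x‖ ^ 2) := ⟨_, rfl⟩
    have hE0 : 0 ≤ E := by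
      have cgf : Continuous fun x => gradient f x := by
        unfold gradient
        exact (LinearIsometryEquiv.continuous _).comp (hf.continuous_fderiv (by simp))
      have hcf : HasCompactSupport fun x => gradient f x := by
        have := (hfc.fderiv (𝕜 := ℝ)).comp_left
          (g := fun L => (InnerProductSpace.toDual ℝ (EuclideanSpace ℝ (Fin n))).symm L) (by simp)
        exact this
      have cu : Continuous fun x => ‖gradient f x‖ ^ 2 := cgf.norm.pow 2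
      have hcu : HasCompactSupport fun x => ‖gradient f x‖ ^ 2 :=
        hcf.norm.comp_left (g := fun t : ℝ => t ^ 2) (by simp)
      have := H89.ent_nonneg (μ := μ) cu hcu (fun x => sq_nonneg _)
      rw [hE]; linarith only [this, hI]
    rw [← hE]
    exact mul_le_mul_of_nonneg_right hPD hE0
  · refine (H89.log_form hP0 hP hf hfc).trans ?_
    exact mul_le_mul_of_nonneg_right (by linarith only [hP0, hPD]) (log_form_nonneg f)
  · refine (hp f hf hfc p hp2).trans ?_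
    have h1 : 0 ≤ p / (p - 2) := div_nonneg (by linarith only [hp2]) (by linarith only [hp2])
    have h2 : 0 ≤ (∫ x, ‖gradient f x‖ ^ p ∂μ) ^ (2 / p) :=
      Real.rpow_nonneg (integral_nonneg fun x => by positivity) _
    gcongr

theorem handin5
    (h : ∃ C : ℝ, 0 < C ∧ ∀ (n : ℕ) (μ : Measure (EuclideanSpace ℝ (Fin n))) [IsProbabilityMeasure μ],
      HasLogConcaveDensity μ → ∀ (b : Fin n → ℝ) (K : Matrix (Fin n) (Fin n) ℝ),
      (∀ i, ∫ x, x i ∂μ = b i) → (∀ i j, ∫ x, (x i - b i) * (x j - b j) ∂μ = K i j) →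
      ∀ f : EuclideanSpace ℝ (Fin n) → ℝ, ContDiff ℝ ∞ f → HasCompactSupport f →
        (∫ x, f x ^ 2 ∂μ) - (∫ x, f x ∂μ) ^ 2 ≤
          C * ∫ x, ∑ i, ∑ j, K i j * (gradient f x i * gradient f x j) ∂μ)
    (hM : ∃ M : ℝ, 0 < M ∧ ∀ (n : ℕ) (μ : Measure (EuclideanSpace ℝ (Fin n)))
      [IsProbabilityMeasure μ], HasLogConcaveDensity μ → ∀ a : ℝ, 0 < a →
      LinearlySubgaussian μ a → DFP.MultipeakLogSobolev μ (M * a ^ 2)) :
    ∃ C : ℝ, 0 < C ∧ ∀ (n : ℕ) (μ : Measure (EuclideanSpace ℝ (Fin n))) [IsProbabilityMeasure μ],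
      HasLogConcaveDensity μ →
      DFP.AffinePoincare μ C ∧
      (∀ Λ : ℝ, 0 ≤ Λ → DFP.CovarianceLE μ Λ → DFP.SmoothInequalities μ (C * Λ)) ∧
      (∀ a : ℝ, 0 < a → LinearlySubgaussian μ a →
        DFP.SmoothInequalities μ (C * a ^ 2) ∧ DFP.MultipeakLogSobolev μ (C * a ^ 2) ∧
        DFP.PolynomialLogSobolev μ (C * a ^ 2) ∧ DFP.KurtosisLogSobolev μ (C * a ^ 2) ∧
        DFP.ConvexIsoperimetry μ C a ∧ DFP.ConvexConcentration μ C a) := by
  obtain ⟨C, hC, h⟩ := handin3 h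
  obtain ⟨M, hM0, hM⟩ := hM
  have e0 : C ≤ 480 * C + M := by linarith only [hC, hM0]
  have e1 : 480 * C ≤ 480 * C + M := by linarith only [hM0]
  have e2 : M ≤ 480 * C + M := by linarith only [hC]
  have hCM : 0 < 480 * C + M := by positivity
  refine ⟨480 * C + M, hCM, fun n μ _ hlc => ?_⟩
  obtain ⟨h1, h2⟩ := h n μ hlc
  refine ⟨fun b K hb hK f hf hfc => ?_, fun Λ hΛ0 hΛ => ?_, fun a ha hsub => ?_⟩
  · have g1 := (h1 b K hb hK f hf hfc).1
    have hv0 : 0 ≤ ∫ x, ∑ i, ∑ j, K i j * (gradient f x i * gradient f x j) ∂μ := by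
      refine le_of_mul_le_mul_left ?_ hC
      rw [mul_zero]
      exact (var_nonneg hf.continuous hfc).trans g1
    exact g1.trans (mul_le_mul_of_nonneg_right e0 hv0)
  · have key := fun f (hf : ContDiff ℝ ∞ f) (hfc : HasCompactSupport f) =>
      (h1 (fun i => ∫ x, x i ∂μ)
      (fun i j => ∫ x, (x i - ∫ x, x i ∂μ) * (x j - ∫ x, x j ∂μ) ∂μ) (fun i => rfl)
      (fun i j => rfl) f hf hfc).2 Λ hΛ0 fun v => by
        refine le_trans (le_of_eq ?_) (hΛ v)
        simp only [dotProduct, mulVec, Finset.mul_sum]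
        exact Finset.sum_congr rfl fun i _ => Finset.sum_congr rfl fun j _ => by ring
    refine smooth_of (P := C * Λ) (by positivity) ?_ (fun f hf hfc => (key f hf hfc).1)
      fun f hf hfc p hp => ?_
    · rw [← mul_assoc]
      exact mul_le_mul_of_nonneg_right e1 hΛ0
    · refine ((key f hf hfc).2.2 p hp).trans (le_of_eq ?_)
      ring
  · obtain ⟨g1, g2, g3, g4, g5, g6⟩ := h2 a ha hsub
    have ha2 : 0 ≤ a ^ 2 := sq_nonneg a
    have e3 : C * a ^ 2 ≤ (480 * C + M) * a ^ 2 := mul_le_mul_of_nonneg_right e0 ha2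
    refine ⟨?_, fun f hf hfc T hT hq => ?_, fun d q hq f hfq => ?_,
      fun f hf hfc k hk hfk => ?_, ⟨fun A hA hAc hA0 hA1 r hr0 hra => ?_, fun Ω hΩ hne => ?_⟩,
      fun F hF hFc t ht => ⟨?_, ?_⟩⟩
    · refine smooth_of (P := C * a ^ 2) (by positivity) ?_ (fun f hf hfc => (g1 f hf hfc).1)
        fun f hf hfc p hp => ?_
      · rw [← mul_assoc]
        exact mul_le_mul_of_nonneg_right e1 ha2
      · refine ((g1 f hf hfc).2.2.2 p hp).trans (le_of_eq ?_)
        ring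
    · refine (hM n μ hlc a ha hsub f hf hfc T hT hq).trans ?_
      have hl : 0 ≤ 1 + Real.log (1 + T ^ 2 / ∫ x, f x ^ 2 ∂μ) := by
        have h0 : 0 ≤ ∫ y, f y ^ 2 ∂μ := integral_nonneg fun x => sq_nonneg _
        have h1 : 0 ≤ T ^ 2 / ∫ y, f y ^ 2 ∂μ := by positivity
        have h2 : 0 ≤ Real.log (1 + T ^ 2 / ∫ y, f y ^ 2 ∂μ) :=
          Real.log_nonneg (by linarith only [h1])
        linarith only [h2]
      have hI : 0 ≤ ∫ x, ‖gradient f x‖ ^ 2 ∂μ := integral_nonneg fun x => by positivity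
      gcongr
    · refine (g2 d q hq f hfq).trans ?_
      have hI : 0 ≤ ∫ x, ‖gradient f x‖ ^ 2 ∂μ := integral_nonneg fun x => by positivity
      calc C * (d + 1) * a ^ 2 * ∫ x, ‖gradient f x‖ ^ 2 ∂μ
          = C * a ^ 2 * (d + 1) * ∫ x, ‖gradient f x‖ ^ 2 ∂μ := by ring
        _ ≤ (480 * C + M) * a ^ 2 * (d + 1) * ∫ x, ‖gradient f x‖ ^ 2 ∂μ := by gcongr
    · refine (((g1 f hf hfc).2.2.1) k hk hfk).trans ?_
      have hI : 0 ≤ ∫ x, ‖gradient f x‖ ^ 2 ∂μ := integral_nonneg fun x => by positivity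
      have hl : 0 ≤ 1 + Real.log k := by
        have := Real.log_nonneg hk
        linarith only [this]
      calc C * (1 + Real.log k) * a ^ 2 * ∫ x, ‖gradient f x‖ ^ 2 ∂μ
          = C * a ^ 2 * (1 + Real.log k) * ∫ x, ‖gradient f x‖ ^ 2 ∂μ := by ring
        _ ≤ (480 * C + M) * a ^ 2 * (1 + Real.log k) * ∫ x, ‖gradient f x‖ ^ 2 ∂μ := by gcongr
    · refine le_trans ?_ (g6 A hA hAc hA0 hA1 r hr0 hra)
      refine mul_le_mul_of_nonneg_left ?_ hA0.le
      have hnum : 0 ≤ r * √(Real.log (1 / μ.real A)) := mul_nonneg hr0 (Real.sqrt_nonneg _)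
      have := div_le_div_of_nonneg_left hnum (show 0 < C * a by positivity)
        (mul_le_mul_of_nonneg_right e0 ha.le)
      linarith only [this]
    · exact (g4 Ω hΩ hne).trans (Real.exp_le_exp.2 (by gcongr))
    · refine (g3 F hF hFc t ht).1.trans (Real.exp_le_exp.2 ?_)
      gcongr
    · exact (g3 F hF hFc t ht).2.trans (Real.exp_le_exp.2 (by gcongr))

end Vale.Agent.P245.H847
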