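import Vale.Agent.P245.H68.Multi
import Vale.Agent.P245.H847.Quasi
import Vale.Agent.P245.H847.HandIn5

/-!
P245: logarithmic Sobolev inequality for functions with several peaks (68, 368, 719), assembly.
-/

open MeasureTheory
open scoped ContDiff

namespace Vale.Agent.P245.H847

open Vale.Agent.P245

theorem lsi_multi {n : ℕ} {μ : Measure (EuclideanSpace ℝ (Fin n))} [IsProbabilityMeasure μ]
    {a C0 P : ℝ} (ha : 0 < a) (hC0 : 0 < C0)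
    (hK : H607.KLS C0) (hlc : HasLogConcaveDensity μ) (hsub : LinearlySubgaussian μ a)
    (hP0 : 0 ≤ P)
    (hP : ∀ f : EuclideanSpace ℝ (Fin n) → ℝ, ContDiff ℝ ∞ f → HasCompactSupport f →
      (∫ x, f x ^ 2 ∂μ) - (∫ x, f x ∂μ) ^ 2 ≤ P * ∫ x, ‖gradient f x‖ ^ 2 ∂μ)
    {f : EuclideanSpace ℝ (Fin n) → ℝ} (hf : ContDiff ℝ ∞ f) (hfc : HasCompactSupport f)
    {T : ℝ} (hq : ∀ᵐ t : ℝ, T < t → DFP.FiniteConvexUnion {x | t ≤ |f x|}) :
    Entropy μ (fun x => f x ^ 2) ≤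
      (280 * P + 655360 * ((8 * C0 + 26) * a ^ 2)) *
        (1 + Real.log (1 + T ^ 2 / ∫ x, f x ^ 2 ∂μ)) * ∫ x, ‖gradient f x‖ ^ 2 ∂μ := by
  have hlog : 0 < Real.log 2 := Real.log_pos (by norm_num)
  have h := H68.high_union (κ := 16 * √((8 * C0 + 26) * a ^ 2))
    (r₀ := 8 * √((8 * C0 + 26) * a ^ 2 * Real.log 2)) QC.H12.med QC.H12.pw
    (by positivity) (by positivity) hP0 (iso_convex ha hC0 hK hlc hsub) hP hf hfc (T := T) hq
  have e : 2560 * (16 * √((8 * C0 + 26) * a ^ 2)) ^ 2 = 655360 * ((8 * C0 + 26) * a ^ 2) := by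
    rw [mul_pow, Real.sq_sqrt (by positivity)]; ring
  rw [e] at h
  exact h

theorem multi_of (h : ∃ C : ℝ, 0 < C ∧ H607.KLS C) :
    ∃ M : ℝ, 0 < M ∧ ∀ (n : ℕ) (μ : Measure (EuclideanSpace ℝ (Fin n)))
      [IsProbabilityMeasure μ], HasLogConcaveDensity μ → ∀ a : ℝ, 0 < a →
      LinearlySubgaussian μ a → DFP.MultipeakLogSobolev μ (M * a ^ 2) := by
  obtain ⟨C, hC, h⟩ := h
  have hmain := handin hC h
  refine ⟨280 * (200 * C) + 655360 * (8 * C + 26), by positivity,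
    fun n μ _ hlc a ha hsub f hf hfc T _ hq => ?_⟩
  have hP : ∀ g : EuclideanSpace ℝ (Fin n) → ℝ, ContDiff ℝ ∞ g → HasCompactSupport g →
      (∫ x, g x ^ 2 ∂μ) - (∫ x, g x ∂μ) ^ 2 ≤ 200 * C * a ^ 2 * ∫ x, ‖gradient g x‖ ^ 2 ∂μ :=
    fun g hg hgc => ((hmain n μ hlc (fun i => ∫ x, x i ∂μ)
      (fun i j => ∫ x, (x i - ∫ x, x i ∂μ) * (x j - ∫ x, x j ∂μ) ∂μ) (fun i => rfl)
      (fun i j => rfl) g hg hgc).2.2 a ha hsub).1
  refine (lsi_multi ha hC h hlc hsub (by positivity) hP hf hfc hq).trans (le_of_eq ?_)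
  ring

theorem handin6
    (h : ∃ C : ℝ, 0 < C ∧ ∀ (n : ℕ) (μ : Measure (EuclideanSpace ℝ (Fin n))) [IsProbabilityMeasure μ],
      HasLogConcaveDensity μ → ∀ (b : Fin n → ℝ) (K : Matrix (Fin n) (Fin n) ℝ),
      (∀ i, ∫ x, x i ∂μ = b i) → (∀ i j, ∫ x, (x i - b i) * (x j - b j) ∂μ = K i j) →
      ∀ f : EuclideanSpace ℝ (Fin n) → ℝ, ContDiff ℝ ∞ f → HasCompactSupport f →
        (∫ x, f x ^ 2 ∂μ) - (∫ x, f x ∂μ) ^ 2 ≤
          C * ∫ x, ∑ i, ∑ j, K i j * (gradient f x i * gradient f x j) ∂μ) :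
    ∃ C : ℝ, 0 < C ∧ ∀ (n : ℕ) (μ : Measure (EuclideanSpace ℝ (Fin n))) [IsProbabilityMeasure μ],
      HasLogConcaveDensity μ →
      DFP.AffinePoincare μ C ∧
      (∀ Λ : ℝ, 0 ≤ Λ → DFP.CovarianceLE μ Λ → DFP.SmoothInequalities μ (C * Λ)) ∧
      (∀ a : ℝ, 0 < a → LinearlySubgaussian μ a →
        DFP.SmoothInequalities μ (C * a ^ 2) ∧ DFP.MultipeakLogSobolev μ (C * a ^ 2) ∧
        DFP.PolynomialLogSobolev μ (C * a ^ 2) ∧ DFP.KurtosisLogSobolev μ (C * a ^ 2) ∧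
        DFP.ConvexIsoperimetry μ C a ∧ DFP.ConvexConcentration μ C a) :=
  handin5 h (multi_of h)

end Vale.Agent.P245.H847
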