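import Vale.Agent.P245.H847.EntMom

open MeasureTheory

namespace Vale.Agent.P245.H847.Gen

variable {e : ℝ}

theorem log_one_add_le (he : 0 < e) (he1 : e ≤ 1) {y : ℝ} (hy : 0 ≤ y) :
    Real.log (1 + y) ≤ 1 / e * y ^ e := by
  have h0 : 0 ≤ y ^ e := Real.rpow_nonneg hy _
  have h2 : (1 + y) ^ e ≤ 1 + y ^ e := by
    have := Real.rpow_add_le_add_rpow (show (0:ℝ) ≤ 1 by norm_num) hy he.le he1
    rwa [Real.one_rpow] at this
  have h3 : e * Real.log (1 + y) ≤ y ^ e := by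
    calc e * Real.log (1 + y) = Real.log ((1 + y) ^ e) := by
          rw [Real.log_rpow (by linarith)]
      _ ≤ Real.log (1 + y ^ e) := Real.log_le_log (Real.rpow_pos_of_pos (by linarith) _) h2
      _ ≤ y ^ e := by
        have := Real.log_le_sub_one_of_pos (show 0 < 1 + y ^ e by linarith)
        linarith
  rw [one_div, ← mul_le_mul_iff_right₀ he, ← mul_assoc, mul_inv_cancel₀ he.ne', one_mul]
  exact h3

theorem psi_le_rpow (he : 0 < e) (he1 : e ≤ 1) {y : ℝ} (hy : -1 ≤ y) :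
    (1 + y) * Real.log (1 + y) - y ≤ 1 / e * |y| ^ (1 + e) := by
  have hie : 1 ≤ 1 / e := by rw [le_div_iff₀ he]; linarith
  rcases le_or_gt 0 y with h | h
  · have h1 := log_one_add_le he he1 h
    have h2 : Real.log (1 + y) ≤ y := by
      have := Real.log_le_sub_one_of_pos (show 0 < 1 + y by linarith)
      linarith
    have h3 : (1 + y) * Real.log (1 + y) - y ≤ y * Real.log (1 + y) := by
      nlinarith
    have h4 : y ^ (1 + e) = y * y ^ e := by
      rcases eq_or_lt_of_le h with h0 | h0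
      · rw [← h0, Real.zero_rpow (by linarith)]; ring
      · rw [Real.rpow_add h0, Real.rpow_one]
    rw [abs_of_nonneg h, h4]
    nlinarith [mul_le_mul_of_nonneg_left h1 h]
  · have h1 := psi_le_sq hy
    have h2 : |y| ≤ 1 := by rw [abs_of_neg h]; linarith
    have h3 : 0 < |y| := abs_pos.mpr h.ne
    have h4 : |y| ^ (2 : ℝ) ≤ |y| ^ (1 + e) :=
      Real.rpow_le_rpow_of_exponent_ge h3 h2 (by linarith)
    rw [Real.rpow_two, sq_abs] at h4
    have h5 : 0 ≤ |y| ^ (1 + e) := Real.rpow_nonneg h3.le _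
    nlinarith [mul_le_mul_of_nonneg_right hie h5]

/-- splitting `y = y₁ + y₂` -/
theorem psi_split (he : 0 < e) (he1 : e ≤ 1) {y y1 y2 : ℝ} (hy : -1 ≤ y) (h : y = y1 + y2) :
    (1 + y) * Real.log (1 + y) - y ≤ 4 * y1 ^ 2 + 4 / e * |y2| ^ (1 + e) := by
  have hr : 0 ≤ |y2| ^ (1 + e) := Real.rpow_nonneg (abs_nonneg _) _
  have h40 : 0 ≤ 4 / e := by positivity
  rcases le_total |y2| |y1| with h1 | h1
  · have h2 := psi_le_sq hy
    have h3 : |y| ≤ 2 * |y1| := by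
      rw [h]; linarith [abs_add_le y1 y2]
    have h4 : y ^ 2 ≤ (2 * |y1|) ^ 2 := by
      rw [← sq_abs y]
      exact pow_le_pow_left₀ (abs_nonneg _) h3 2
    rw [mul_pow, sq_abs] at h4
    nlinarith [mul_nonneg h40 hr]
  · have h2 := psi_le_rpow he he1 hy
    have h3 : |y| ≤ 2 * |y2| := by
      rw [h]; linarith [abs_add_le y1 y2]
    have h4 : |y| ^ (1 + e) ≤ (2 * |y2|) ^ (1 + e) :=
      Real.rpow_le_rpow (abs_nonneg _) h3 (by linarith)
    rw [Real.mul_rpow (by norm_num) (abs_nonneg _)] at h4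
    have h5 : (2 : ℝ) ^ (1 + e) ≤ 4 := by
      calc (2 : ℝ) ^ (1 + e) ≤ (2 : ℝ) ^ (2 : ℝ) :=
            Real.rpow_le_rpow_of_exponent_le (by norm_num) (by linarith)
        _ = 4 := by rw [Real.rpow_two]; norm_num
    have h6 : (2 : ℝ) ^ (1 + e) * |y2| ^ (1 + e) ≤ 4 * |y2| ^ (1 + e) :=
      mul_le_mul_of_nonneg_right h5 hr
    have h7 : 1 / e * |y| ^ (1 + e) ≤ 1 / e * (4 * |y2| ^ (1 + e)) :=
      mul_le_mul_of_nonneg_left (h4.trans h6) (by positivity)
    have h8 : 1 / e * (4 * |y2| ^ (1 + e)) = 4 / e * |y2| ^ (1 + e) := by ring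
    nlinarith [sq_nonneg y1]

theorem sq_rpow' (e : ℝ) (F : ℝ) : (F ^ 2) ^ (1 + e) = |F| ^ (2 + 2 * e) := by
  rw [← sq_abs, ← Real.rpow_natCast, ← Real.rpow_mul (abs_nonneg _)]
  congr 1; push_cast; ring

/-- The pointwise inequality behind the entropy bound. -/
theorem point (he : 0 < e) (he1 : e ≤ 1) {c F N t : ℝ} (hN : 0 < N) (ht : t = c ^ 2 + N ^ 2) :
    (c + F) ^ 2 * Real.log ((c + F) ^ 2) - (c + F) ^ 2 * Real.log t - (c + F) ^ 2 + t ≤
      16 * F ^ 2 + 4 / e * (N ^ 2 * (N ^ (2 + 2 * e))⁻¹) *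
        (|F| ^ (2 + 2 * e) + N ^ (2 + 2 * e)) := by
  have ht0 : 0 < t := by rw [ht]; positivity
  set y := (c + F) ^ 2 / t - 1 with hy
  have hy1 : -1 ≤ y := by
    have : 0 ≤ (c + F) ^ 2 / t := by positivity
    linarith
  have e1 : (c + F) ^ 2 = t * (1 + y) := by rw [hy]; field_simp; ring
  have e2 : y = 2 * c * F / t + (F ^ 2 - N ^ 2) / t := by
    rw [hy, ht]
    have : c ^ 2 + N ^ 2 ≠ 0 := by rw [← ht]; exact ht0.ne'
    field_simp
    ring
  have h1 := psi_split he he1 hy1 e2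
  have e3 : (c + F) ^ 2 * Real.log ((c + F) ^ 2) - (c + F) ^ 2 * Real.log t - (c + F) ^ 2 + t
      = t * ((1 + y) * Real.log (1 + y) - y) := by
    rcases eq_or_ne (1 + y) 0 with h0 | h0
    · have h00 : (c + F) ^ 2 = 0 := by rw [e1, h0, mul_zero]
      rw [h00]
      have : y = -1 := by linarith
      rw [this]; norm_num
    · rw [e1, Real.log_mul ht0.ne' h0]; ring
  rw [e3]
  have hr : |(F ^ 2 - N ^ 2) / t| ^ (1 + e) ≤
      t⁻¹ * ((N ^ 2 * (N ^ (2 + 2 * e))⁻¹) * (|F| ^ (2 + 2 * e) + N ^ (2 + 2 * e))) := by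
    have hN2 : (N ^ 2) ^ (1 + e) = N ^ (2 + 2 * e) := by
      rw [sq_rpow', abs_of_pos hN]
    have ha : |F ^ 2 - N ^ 2| ^ (1 + e) ≤ |F| ^ (2 + 2 * e) + N ^ (2 + 2 * e) := by
      have hb : |F ^ 2 - N ^ 2| ≤ max (F ^ 2) (N ^ 2) := by
        rw [abs_le]
        constructor
        · have := le_max_right (F ^ 2) (N ^ 2)
          nlinarith [sq_nonneg F, sq_nonneg N]
        · have := le_max_left (F ^ 2) (N ^ 2)
          nlinarith [sq_nonneg F, sq_nonneg N]
      have hc : |F ^ 2 - N ^ 2| ^ (1 + e) ≤ (max (F ^ 2) (N ^ 2)) ^ (1 + e) :=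
        Real.rpow_le_rpow (abs_nonneg _) hb (by linarith)
      have p1 : 0 ≤ |F| ^ (2 + 2 * e) := Real.rpow_nonneg (abs_nonneg _) _
      have p2 : 0 ≤ N ^ (2 + 2 * e) := Real.rpow_nonneg hN.le _
      rcases le_total (F ^ 2) (N ^ 2) with h | h
      · rw [max_eq_right h, hN2] at hc; linarith
      · rw [max_eq_left h, sq_rpow'] at hc; linarith
    rw [abs_div, abs_of_pos ht0, Real.div_rpow (abs_nonneg _) ht0.le]
    have hb : (t ^ (1 + e))⁻¹ ≤ t⁻¹ * (N ^ 2 * (N ^ (2 + 2 * e))⁻¹) := by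
      have q1 : t ^ (1 + e) = t * t ^ e := by
        rw [Real.rpow_add ht0, Real.rpow_one]
      have q2 : N ^ (2 + 2 * e) = N ^ 2 * (N ^ 2) ^ e := by
        rw [Real.rpow_add hN, Real.rpow_mul hN.le, Real.rpow_two]
      have q3 : (N ^ 2) ^ e ≤ t ^ e :=
        Real.rpow_le_rpow (by positivity) (by rw [ht]; nlinarith [sq_nonneg c]) he.le
      have q4 : 0 < (N ^ 2) ^ e := Real.rpow_pos_of_pos (by positivity) _
      rw [q1, q2, mul_inv, mul_inv, ← mul_assoc (N ^ 2), mul_inv_cancel₀ (by positivity), one_mul]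
      exact mul_le_mul_of_nonneg_left (inv_anti₀ q4 q3) (by positivity)
    have p0 : 0 ≤ |F| ^ (2 + 2 * e) + N ^ (2 + 2 * e) := by positivity
    calc |F ^ 2 - N ^ 2| ^ (1 + e) / t ^ (1 + e)
        = |F ^ 2 - N ^ 2| ^ (1 + e) * (t ^ (1 + e))⁻¹ := by rw [div_eq_mul_inv]
      _ ≤ (|F| ^ (2 + 2 * e) + N ^ (2 + 2 * e)) * (t⁻¹ * (N ^ 2 * (N ^ (2 + 2 * e))⁻¹)) :=
          mul_le_mul ha hb (by positivity) p0
      _ = _ := by ring
  have hs : t * (4 * (2 * c * F / t) ^ 2) ≤ 16 * F ^ 2 := by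
    have : t * (4 * (2 * c * F / t) ^ 2) = 16 * F ^ 2 * (c ^ 2 / t) := by
      field_simp; ring
    rw [this]
    have h2 : c ^ 2 / t ≤ 1 := by
      rw [div_le_one ht0, ht]; nlinarith [sq_nonneg N]
    nlinarith [sq_nonneg F, mul_le_mul_of_nonneg_left h2 (show 0 ≤ 16 * F ^ 2 by positivity)]
  have hm := mul_le_mul_of_nonneg_left h1 ht0.le
  have h40 : 0 ≤ 4 / e := by positivity
  have hr' := mul_le_mul_of_nonneg_left (mul_le_mul_of_nonneg_left hr ht0.le) h40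
  rw [← mul_assoc t t⁻¹, mul_inv_cancel₀ ht0.ne', one_mul] at hr'
  have hfin : t * (4 * (2 * c * F / t) ^ 2 + 4 / e * |(F ^ 2 - N ^ 2) / t| ^ (1 + e)) =
      t * (4 * (2 * c * F / t) ^ 2) + 4 / e * (t * |(F ^ 2 - N ^ 2) / t| ^ (1 + e)) := by ring
  rw [hfin] at hm
  refine hm.trans ((add_le_add hs hr').trans (le_of_eq ?_))
  ring

theorem abs_mul_log_le (he : 0 < e) (he1 : e ≤ 1) {u : ℝ} (hu : 0 ≤ u) :
    |u * Real.log u| ≤ 1 + 1 / e * u ^ (1 + e) := by
  have hr : 0 ≤ u ^ (1 + e) := Real.rpow_nonneg hu _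
  have hr2 : 0 ≤ 1 / e * u ^ (1 + e) := by positivity
  rcases eq_or_lt_of_le hu with h0 | h0
  · rw [← h0] at hr2 ⊢; simp only [zero_mul, abs_zero]; linarith
  rcases le_total u 1 with h | h
  · have h1 : -1 ≤ u * Real.log u := by
      have := Real.one_sub_inv_le_log_of_pos h0
      have h2 := mul_le_mul_of_nonneg_left this hu
      have h3 : u * (1 - u⁻¹) = u - 1 := by field_simp
      linarith
    have h2 : u * Real.log u ≤ 0 := mul_nonpos_of_nonneg_of_nonpos hu (Real.log_nonpos hu h)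
    rw [abs_of_nonpos h2]; linarith
  · have h1 : 0 ≤ Real.log u := Real.log_nonneg h
    have h2 := log_one_add_le he he1 (show 0 ≤ u by linarith)
    have h3 : Real.log u ≤ Real.log (1 + u) := Real.log_le_log h0 (by linarith)
    have h4 : u ^ (1 + e) = u * u ^ e := by
      rw [Real.rpow_add h0, Real.rpow_one]
    rw [abs_of_nonneg (mul_nonneg hu h1), h4]
    nlinarith [mul_le_mul_of_nonneg_left (h3.trans h2) hu]

theorem add_rpow_le (he : 0 < e) (he1 : e ≤ 1) (a b : ℝ) :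
    |a + b| ^ (2 + 2 * e) ≤ 16 * (|a| ^ (2 + 2 * e) + |b| ^ (2 + 2 * e)) := by
  have h1 : |a + b| ≤ 2 * max |a| |b| := by
    have := abs_add_le a b
    have h2 := le_max_left |a| |b|
    have h3 := le_max_right |a| |b|
    linarith
  have h2 : |a + b| ^ (2 + 2 * e) ≤ (2 * max |a| |b|) ^ (2 + 2 * e) :=
    Real.rpow_le_rpow (abs_nonneg _) h1 (by linarith)
  have hm : 0 ≤ max |a| |b| := le_max_of_le_left (abs_nonneg _)
  rw [Real.mul_rpow (by norm_num) hm] at h2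
  have h5 : (2 : ℝ) ^ (2 + 2 * e) ≤ 16 := by
    calc (2 : ℝ) ^ (2 + 2 * e) ≤ (2 : ℝ) ^ (4 : ℝ) :=
          Real.rpow_le_rpow_of_exponent_le (by norm_num) (by linarith)
      _ = 16 := by
        rw [show (4 : ℝ) = ((4 : ℕ) : ℝ) by norm_num, Real.rpow_natCast]; norm_num
  have p1 : 0 ≤ |a| ^ (2 + 2 * e) := Real.rpow_nonneg (abs_nonneg _) _
  have p2 : 0 ≤ |b| ^ (2 + 2 * e) := Real.rpow_nonneg (abs_nonneg _) _
  have h6 : (max |a| |b|) ^ (2 + 2 * e) ≤ |a| ^ (2 + 2 * e) + |b| ^ (2 + 2 * e) := by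
    rcases le_total |a| |b| with h | h
    · rw [max_eq_right h]; linarith
    · rw [max_eq_left h]; linarith
  have h7 : 0 ≤ (max |a| |b|) ^ (2 + 2 * e) := Real.rpow_nonneg hm _
  calc |a + b| ^ (2 + 2 * e) ≤ (2 : ℝ) ^ (2 + 2 * e) * (max |a| |b|) ^ (2 + 2 * e) := h2
    _ ≤ 16 * (max |a| |b|) ^ (2 + 2 * e) := mul_le_mul_of_nonneg_right h5 h7
    _ ≤ _ := mul_le_mul_of_nonneg_left h6 (by norm_num)

theorem sq_le_aux (he : 0 < e) {F N : ℝ} (hN : 0 < N) :
    F ^ 2 ≤ N ^ 2 + (N ^ 2 * (N ^ (2 + 2 * e))⁻¹) * |F| ^ (2 + 2 * e) := by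
  have p1 : 0 ≤ |F| ^ (2 + 2 * e) := Real.rpow_nonneg (abs_nonneg _) _
  have p2 : 0 < N ^ (2 + 2 * e) := Real.rpow_pos_of_pos hN _
  rcases le_total |F| N with h | h
  · have h1 : F ^ 2 ≤ N ^ 2 := by
      rw [← sq_abs]; exact pow_le_pow_left₀ (abs_nonneg _) h 2
    have : 0 ≤ (N ^ 2 * (N ^ (2 + 2 * e))⁻¹) * |F| ^ (2 + 2 * e) := by positivity
    linarith
  · have hF : 0 < |F| := lt_of_lt_of_le hN h
    have e1 : |F| ^ (2 + 2 * e) = |F| ^ 2 * |F| ^ (2 * e) := by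
      rw [Real.rpow_add hF, Real.rpow_two]
    have e2 : N ^ (2 + 2 * e) = N ^ 2 * N ^ (2 * e) := by
      rw [Real.rpow_add hN, Real.rpow_two]
    have e3 : N ^ (2 * e) ≤ |F| ^ (2 * e) := Real.rpow_le_rpow hN.le h (by linarith)
    have q : 0 < N ^ (2 * e) := Real.rpow_pos_of_pos hN _
    have e4 : N ^ 2 * (N ^ (2 + 2 * e))⁻¹ = (N ^ (2 * e))⁻¹ := by
      rw [e2]; field_simp
    rw [e4, e1, sq_abs]
    have e5 : 1 ≤ (N ^ (2 * e))⁻¹ * |F| ^ (2 * e) := by
      rw [inv_mul_eq_div, le_div_iff₀ q, one_mul]; exact e3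
    nlinarith [sq_nonneg F, sq_nonneg N, mul_le_mul_of_nonneg_left e5 (sq_nonneg F)]

variable {n : ℕ}

/-- **Entropy from a moment of order `2 + 2e`.** -/
theorem entropy_le (μ : Measure (EuclideanSpace ℝ (Fin n))) [IsProbabilityMeasure μ]
    (he : 0 < e) (he1 : e ≤ 1)
    {f : EuclideanSpace ℝ (Fin n) → ℝ} (hfm : AEStronglyMeasurable f μ) {c N : ℝ} (hN : 0 < N)
    (hi : Integrable (fun x => |f x - c| ^ (2 + 2 * e)) μ)
    (h : ∫ x, |f x - c| ^ (2 + 2 * e) ∂μ ≤ N ^ (2 + 2 * e)) :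
    Entropy μ (fun x => f x ^ 2) ≤ 40 / e * N ^ 2 := by
  have p2 : 0 < N ^ (2 + 2 * e) := Real.rpow_pos_of_pos hN _
  set κ : ℝ := N ^ 2 * (N ^ (2 + 2 * e))⁻¹ with hκ
  have hκ0 : 0 < κ := by positivity
  set t : ℝ := c ^ 2 + N ^ 2 with ht
  have ht0 : 0 < t := by rw [ht]; positivity
  -- integrability
  have hFm : AEStronglyMeasurable (fun x => f x - c) μ := hfm.sub aestronglyMeasurable_const
  have hF2 : Integrable (fun x => (f x - c) ^ 2) μ := by
    refine Integrable.mono' ((integrable_const (N ^ 2)).add (hi.const_mul κ)) (hFm.pow 2) ?_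
    filter_upwards with x
    rw [Real.norm_eq_abs, abs_of_nonneg (sq_nonneg _)]
    exact sq_le_aux he hN
  have hf2 : Integrable (fun x => f x ^ 2) μ := by
    refine Integrable.mono' ((hF2.const_mul 2).add (integrable_const (2 * c ^ 2))) (hfm.pow 2) ?_
    filter_upwards with x
    rw [Real.norm_eq_abs, abs_of_nonneg (sq_nonneg _)]
    simp only [Pi.add_apply]
    nlinarith [sq_nonneg (f x - 2 * c)]
  have hfr : Integrable (fun x => |f x| ^ (2 + 2 * e)) μ := by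
    refine Integrable.mono' ((hi.add (integrable_const (|c| ^ (2 + 2 * e)))).const_mul 16) ?_ ?_
    · exact (hfm.norm.aemeasurable.pow_const _).aestronglyMeasurable
    filter_upwards with x
    rw [Real.norm_eq_abs, abs_of_nonneg (Real.rpow_nonneg (abs_nonneg _) _)]
    have := add_rpow_le he he1 (f x - c) c
    simpa using this
  have hfl : Integrable (fun x => f x ^ 2 * Real.log (f x ^ 2)) μ := by
    refine Integrable.mono' ((integrable_const (1 : ℝ)).add (hfr.const_mul (1 / e))) ?_ ?_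
    · exact ((hfm.aemeasurable.pow_const 2).mul
        (Real.measurable_log.comp_aemeasurable (hfm.aemeasurable.pow_const 2))).aestronglyMeasurable
    filter_upwards with x
    have := abs_mul_log_le he he1 (sq_nonneg (f x))
    rw [sq_rpow'] at this
    simpa [Real.norm_eq_abs] using this
  -- variational inequality
  set G : ℝ := ∫ x, f x ^ 2 ∂μ with hG
  have hG0 : 0 ≤ G := integral_nonneg (fun x => sq_nonneg _)
  have i1 : Integrable (fun x => f x ^ 2 * Real.log t) μ := hf2.mul_const _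
  have i2 : Integrable (fun x => f x ^ 2 * Real.log (f x ^ 2) - f x ^ 2 * Real.log t) μ :=
    hfl.sub i1
  have i3 : Integrable (fun x => f x ^ 2 * Real.log (f x ^ 2) - f x ^ 2 * Real.log t - f x ^ 2) μ :=
    i2.sub hf2
  have i4 : Integrable
      (fun x => f x ^ 2 * Real.log (f x ^ 2) - f x ^ 2 * Real.log t - f x ^ 2 + t) μ :=
    i3.add (integrable_const t)
  have j1 : Integrable (fun x => 16 * (f x - c) ^ 2) μ := hF2.const_mul 16
  have j2 : Integrable (fun x => |f x - c| ^ (2 + 2 * e) + N ^ (2 + 2 * e)) μ :=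
    hi.add (integrable_const _)
  have j3 : Integrable (fun x => 4 / e * κ * (|f x - c| ^ (2 + 2 * e) + N ^ (2 + 2 * e))) μ :=
    j2.const_mul (4 / e * κ)
  have j4 : Integrable (fun x => 16 * (f x - c) ^ 2 +
      4 / e * κ * (|f x - c| ^ (2 + 2 * e) + N ^ (2 + 2 * e))) μ := j1.add j3
  have k1 : Integrable (fun x => κ * |f x - c| ^ (2 + 2 * e)) μ := hi.const_mul κ
  have k2 : Integrable (fun x => N ^ 2 + κ * |f x - c| ^ (2 + 2 * e)) μ :=
    (integrable_const (N ^ 2)).add k1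
  have hvar : Entropy μ (fun x => f x ^ 2) ≤
      ∫ x, (f x ^ 2 * Real.log (f x ^ 2) - f x ^ 2 * Real.log t - f x ^ 2 + t) ∂μ := by
    have e1 : ∫ x, (f x ^ 2 * Real.log (f x ^ 2) - f x ^ 2 * Real.log t - f x ^ 2 + t) ∂μ
        = ∫ x, f x ^ 2 * Real.log (f x ^ 2) ∂μ - G * Real.log t - G + t := by
      rw [integral_add i3 (integrable_const _), integral_sub i2 hf2, integral_sub hfl i1,
        integral_mul_const]
      simp [hG]
    rw [e1]
    unfold Entropy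
    rw [← hG]
    rcases eq_or_lt_of_le hG0 with h0 | h0
    · rw [← h0]; simp; linarith
    · have := Real.log_le_sub_one_of_pos (show 0 < t / G by positivity)
      rw [Real.log_div ht0.ne' h0.ne'] at this
      have h3 := mul_le_mul_of_nonneg_left this hG0
      have h4 : G * (t / G - 1) = t - G := by field_simp
      nlinarith
  refine hvar.trans ?_
  have hp : ∀ x, f x ^ 2 * Real.log (f x ^ 2) - f x ^ 2 * Real.log t - f x ^ 2 + t ≤
      16 * (f x - c) ^ 2 + 4 / e * κ * (|f x - c| ^ (2 + 2 * e) + N ^ (2 + 2 * e)) := by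
    intro x
    have := point he he1 (c := c) (F := f x - c) hN ht
    rw [show c + (f x - c) = f x by ring] at this
    exact this
  refine (integral_mono i4 j4 hp).trans ?_
  have e2 : ∫ x, (16 * (f x - c) ^ 2 + 4 / e * κ * (|f x - c| ^ (2 + 2 * e) + N ^ (2 + 2 * e))) ∂μ
      = 16 * ∫ x, (f x - c) ^ 2 ∂μ +
        4 / e * κ * (∫ x, |f x - c| ^ (2 + 2 * e) ∂μ + N ^ (2 + 2 * e)) := by
    rw [integral_add j1 j3, integral_const_mul, integral_const_mul,
      integral_add hi (integrable_const _)]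
    simp
  have hF2le : ∫ x, (f x - c) ^ 2 ∂μ ≤ N ^ 2 + κ * N ^ (2 + 2 * e) := by
    refine (integral_mono hF2 k2 (fun x => sq_le_aux he (F := f x - c) hN)).trans ?_
    have e3 : ∫ x, (N ^ 2 + κ * |f x - c| ^ (2 + 2 * e)) ∂μ
        = N ^ 2 + κ * ∫ x, |f x - c| ^ (2 + 2 * e) ∂μ := by
      rw [integral_add (integrable_const _) k1, integral_const_mul]
      simp
    rw [e3]
    nlinarith [mul_le_mul_of_nonneg_left h hκ0.le]
  have hκN : κ * N ^ (2 + 2 * e) = N ^ 2 := by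
    rw [hκ]; field_simp
  rw [e2]
  have h40 : 0 ≤ 4 / e := by positivity
  have h41 : κ * (∫ x, |f x - c| ^ (2 + 2 * e) ∂μ + N ^ (2 + 2 * e)) ≤ 2 * N ^ 2 := by
    have := mul_le_mul_of_nonneg_left h hκ0.le
    nlinarith
  have h42 := mul_le_mul_of_nonneg_left h41 h40
  have h43 : 32 * N ^ 2 ≤ 32 / e * N ^ 2 := by
    have : 32 ≤ 32 / e := by rw [le_div_iff₀ he]; nlinarith
    exact mul_le_mul_of_nonneg_right this (sq_nonneg N)
  have h44 : 40 / e * N ^ 2 = 32 / e * N ^ 2 + 4 / e * (2 * N ^ 2) := by ring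
  rw [h44, mul_assoc (4 / e)]
  nlinarith

end Vale.Agent.P245.H847.Gen
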