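import Vale.Agent.P245.H847.EntMom

open MeasureTheory

namespace Vale.Agent.P245.H847

theorem abs_mul_log_le {u : ℝ} (hu : 0 ≤ u) :
    |u * Real.log u| ≤ 1 + 5 * u ^ ((6 : ℝ) / 5) := by
  have hr : 0 ≤ u ^ ((6 : ℝ) / 5) := Real.rpow_nonneg hu _
  rcases eq_or_lt_of_le hu with h0 | h0
  · rw [← h0]; simp
  rcases le_total u 1 with h | h
  · have h1 : -1 ≤ u * Real.log u := by
      have := Real.one_sub_inv_le_log_of_pos h0
      have h2 := mul_le_mul_of_nonneg_left this hu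
      have h3 : u * (1 - u⁻¹) = u - 1 := by field_simp
      linarith
    have h2 : u * Real.log u ≤ 0 := mul_nonpos_of_nonneg_of_nonpos hu (Real.log_nonpos hu h)
    rw [abs_of_nonpos h2]; linarith
  · have h1 : 0 ≤ Real.log u := Real.log_nonneg h
    have h2 := log_one_add_le (show 0 ≤ u by linarith)
    have h3 : Real.log u ≤ Real.log (1 + u) := Real.log_le_log h0 (by linarith)
    have h4 : u ^ ((6 : ℝ) / 5) = u * u ^ ((1 : ℝ) / 5) := by
      rw [show (6 : ℝ) / 5 = 1 + 1 / 5 by norm_num, Real.rpow_add h0, Real.rpow_one]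
    rw [abs_of_nonneg (mul_nonneg hu h1), h4]
    nlinarith [mul_le_mul_of_nonneg_left (h3.trans h2) hu]

theorem sq_rpow (F : ℝ) : (F ^ 2) ^ ((6 : ℝ) / 5) = |F| ^ ((12 : ℝ) / 5) := by
  rw [← sq_abs, ← Real.rpow_natCast, ← Real.rpow_mul (abs_nonneg _)]
  norm_num

theorem add_rpow_le (a b : ℝ) :
    |a + b| ^ ((12 : ℝ) / 5) ≤ 8 * (|a| ^ ((12 : ℝ) / 5) + |b| ^ ((12 : ℝ) / 5)) := by
  have h1 : |a + b| ≤ 2 * max |a| |b| := by
    have := abs_add_le a b
    have h2 := le_max_left |a| |b|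
    have h3 := le_max_right |a| |b|
    linarith
  have h2 : |a + b| ^ ((12 : ℝ) / 5) ≤ (2 * max |a| |b|) ^ ((12 : ℝ) / 5) :=
    Real.rpow_le_rpow (abs_nonneg _) h1 (by norm_num)
  have hm : 0 ≤ max |a| |b| := le_max_of_le_left (abs_nonneg _)
  rw [Real.mul_rpow (by norm_num) hm] at h2
  have h5 : (2 : ℝ) ^ ((12 : ℝ) / 5) ≤ 8 := by
    have : ((2 : ℝ) ^ ((12 : ℝ) / 5)) ^ 5 ≤ 8 ^ 5 := by
      rw [← Real.rpow_natCast, ← Real.rpow_mul (by norm_num)]
      norm_num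
    exact le_of_pow_le_pow_left₀ (by norm_num) (by norm_num) this
  have p1 : 0 ≤ |a| ^ ((12 : ℝ) / 5) := Real.rpow_nonneg (abs_nonneg _) _
  have p2 : 0 ≤ |b| ^ ((12 : ℝ) / 5) := Real.rpow_nonneg (abs_nonneg _) _
  have h6 : (max |a| |b|) ^ ((12 : ℝ) / 5) ≤ |a| ^ ((12 : ℝ) / 5) + |b| ^ ((12 : ℝ) / 5) := by
    rcases le_total |a| |b| with h | h
    · rw [max_eq_right h]; linarith
    · rw [max_eq_left h]; linarith
  have h7 : 0 ≤ (max |a| |b|) ^ ((12 : ℝ) / 5) := Real.rpow_nonneg hm _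
  calc |a + b| ^ ((12 : ℝ) / 5) ≤ (2 : ℝ) ^ ((12 : ℝ) / 5) * (max |a| |b|) ^ ((12 : ℝ) / 5) := h2
    _ ≤ 8 * (max |a| |b|) ^ ((12 : ℝ) / 5) := mul_le_mul_of_nonneg_right h5 h7
    _ ≤ _ := mul_le_mul_of_nonneg_left h6 (by norm_num)

theorem sq_le_aux {F N : ℝ} (hN : 0 < N) :
    F ^ 2 ≤ N ^ 2 + (N ^ 2 * (N ^ ((12 : ℝ) / 5))⁻¹) * |F| ^ ((12 : ℝ) / 5) := by
  have p1 : 0 ≤ |F| ^ ((12 : ℝ) / 5) := Real.rpow_nonneg (abs_nonneg _) _
  have p2 : 0 < N ^ ((12 : ℝ) / 5) := Real.rpow_pos_of_pos hN _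
  rcases le_total |F| N with h | h
  · have h1 : F ^ 2 ≤ N ^ 2 := by
      rw [← sq_abs]; exact pow_le_pow_left₀ (abs_nonneg _) h 2
    have : 0 ≤ (N ^ 2 * (N ^ ((12 : ℝ) / 5))⁻¹) * |F| ^ ((12 : ℝ) / 5) := by positivity
    linarith
  · have hF : 0 < |F| := lt_of_lt_of_le hN h
    have e1 : |F| ^ ((12 : ℝ) / 5) = |F| ^ 2 * |F| ^ ((2 : ℝ) / 5) := by
      rw [show (12 : ℝ) / 5 = 2 + 2 / 5 by norm_num, Real.rpow_add hF, Real.rpow_two]
    have e2 : N ^ ((12 : ℝ) / 5) = N ^ 2 * N ^ ((2 : ℝ) / 5) := by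
      rw [show (12 : ℝ) / 5 = 2 + 2 / 5 by norm_num, Real.rpow_add hN, Real.rpow_two]
    have e3 : N ^ ((2 : ℝ) / 5) ≤ |F| ^ ((2 : ℝ) / 5) := Real.rpow_le_rpow hN.le h (by norm_num)
    have q : 0 < N ^ ((2 : ℝ) / 5) := Real.rpow_pos_of_pos hN _
    have e4 : N ^ 2 * (N ^ ((12 : ℝ) / 5))⁻¹ = (N ^ ((2 : ℝ) / 5))⁻¹ := by
      rw [e2]; field_simp
    rw [e4, e1, sq_abs]
    have e5 : 1 ≤ (N ^ ((2 : ℝ) / 5))⁻¹ * |F| ^ ((2 : ℝ) / 5) := by
      rw [inv_mul_eq_div, le_div_iff₀ q, one_mul]; exact e3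
    nlinarith [sq_nonneg F, sq_nonneg N, mul_le_mul_of_nonneg_left e5 (sq_nonneg F)]

variable {n : ℕ}

/-- **Entropy from the moment of order `12/5`.** -/
theorem entropy_le (μ : Measure (EuclideanSpace ℝ (Fin n))) [IsProbabilityMeasure μ]
    {f : EuclideanSpace ℝ (Fin n) → ℝ} (hfm : AEStronglyMeasurable f μ) {c N : ℝ} (hN : 0 < N)
    (hi : Integrable (fun x => |f x - c| ^ ((12 : ℝ) / 5)) μ)
    (h : ∫ x, |f x - c| ^ ((12 : ℝ) / 5) ∂μ ≤ N ^ ((12 : ℝ) / 5)) :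
    Entropy μ (fun x => f x ^ 2) ≤ 56 * N ^ 2 := by
  have p2 : 0 < N ^ ((12 : ℝ) / 5) := Real.rpow_pos_of_pos hN _
  set κ : ℝ := N ^ 2 * (N ^ ((12 : ℝ) / 5))⁻¹ with hκ
  have hκ0 : 0 < κ := by positivity
  set t : ℝ := c ^ 2 + N ^ 2 with ht
  have ht0 : 0 < t := by rw [ht]; positivity
  -- integrability
  have hFm : AEStronglyMeasurable (fun x => f x - c) μ := hfm.sub aestronglyMeasurable_const
  have hF2 : Integrable (fun x => (f x - c) ^ 2) μ := by
    refine Integrable.mono' ((integrable_const (N ^ 2)).add (hi.const_mul κ)) (hFm.pow 2) ?_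
    filter_upwards with x
    rw [Real.norm_eq_abs, abs_of_nonneg (sq_nonneg _)]
    exact sq_le_aux hN
  have hf2 : Integrable (fun x => f x ^ 2) μ := by
    refine Integrable.mono' ((hF2.const_mul 2).add (integrable_const (2 * c ^ 2))) (hfm.pow 2) ?_
    filter_upwards with x
    rw [Real.norm_eq_abs, abs_of_nonneg (sq_nonneg _)]
    simp only [Pi.add_apply]
    nlinarith [sq_nonneg (f x - 2 * c)]
  have hfr : Integrable (fun x => |f x| ^ ((12 : ℝ) / 5)) μ := by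
    refine Integrable.mono' ((hi.add (integrable_const (|c| ^ ((12 : ℝ) / 5)))).const_mul 8) ?_ ?_
    · exact (hfm.norm.aemeasurable.pow_const _).aestronglyMeasurable
    filter_upwards with x
    rw [Real.norm_eq_abs, abs_of_nonneg (Real.rpow_nonneg (abs_nonneg _) _)]
    have := add_rpow_le (f x - c) c
    simpa using this
  have hfl : Integrable (fun x => f x ^ 2 * Real.log (f x ^ 2)) μ := by
    refine Integrable.mono' ((integrable_const (1 : ℝ)).add (hfr.const_mul 5)) ?_ ?_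
    · exact ((hfm.aemeasurable.pow_const 2).mul
        (Real.measurable_log.comp_aemeasurable (hfm.aemeasurable.pow_const 2))).aestronglyMeasurable
    filter_upwards with x
    have := abs_mul_log_le (sq_nonneg (f x))
    rw [sq_rpow] at this
    simpa [Real.norm_eq_abs] using this
  -- variational inequality
  set G : ℝ := ∫ x, f x ^ 2 ∂μ with hG
  have hG0 : 0 ≤ G := integral_nonneg (fun x => sq_nonneg _)
  have i1 : Integrable (fun x => f x ^ 2 * Real.log t) μ := hf2.mul_const _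
  have i2 : Integrable (fun x => f x ^ 2 * Real.log (f x ^ 2) - f x ^ 2 * Real.log t) μ :=
    hfl.sub i1
  have i3 : Integrable (fun x => f x ^ 2 * Real.log (f x ^ 2) - f x ^ 2 * Real.log t - f x ^ 2) μ :=
    i2.sub hf2
  have i4 : Integrable
      (fun x => f x ^ 2 * Real.log (f x ^ 2) - f x ^ 2 * Real.log t - f x ^ 2 + t) μ :=
    i3.add (integrable_const t)
  have j1 : Integrable (fun x => 16 * (f x - c) ^ 2) μ := hF2.const_mul 16
  have j2 : Integrable (fun x => |f x - c| ^ ((12 : ℝ) / 5) + N ^ ((12 : ℝ) / 5)) μ :=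
    hi.add (integrable_const _)
  have j3 : Integrable (fun x => 12 * κ * (|f x - c| ^ ((12 : ℝ) / 5) + N ^ ((12 : ℝ) / 5))) μ :=
    j2.const_mul (12 * κ)
  have j4 : Integrable (fun x => 16 * (f x - c) ^ 2 +
      12 * κ * (|f x - c| ^ ((12 : ℝ) / 5) + N ^ ((12 : ℝ) / 5))) μ := j1.add j3
  have k1 : Integrable (fun x => κ * |f x - c| ^ ((12 : ℝ) / 5)) μ := hi.const_mul κ
  have k2 : Integrable (fun x => N ^ 2 + κ * |f x - c| ^ ((12 : ℝ) / 5)) μ :=
    (integrable_const (N ^ 2)).add k1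
  have hvar : Entropy μ (fun x => f x ^ 2) ≤
      ∫ x, (f x ^ 2 * Real.log (f x ^ 2) - f x ^ 2 * Real.log t - f x ^ 2 + t) ∂μ := by
    have e1 : ∫ x, (f x ^ 2 * Real.log (f x ^ 2) - f x ^ 2 * Real.log t - f x ^ 2 + t) ∂μ
        = ∫ x, f x ^ 2 * Real.log (f x ^ 2) ∂μ - G * Real.log t - G + t := by
      rw [integral_add i3 (integrable_const _), integral_sub i2 hf2, integral_sub hfl i1,
        integral_mul_const]
      simp [hG]
    rw [e1]
    unfold Entropy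
    rw [← hG]
    rcases eq_or_lt_of_le hG0 with h0 | h0
    · rw [← h0]; simp; linarith
    · have := Real.log_le_sub_one_of_pos (show 0 < t / G by positivity)
      rw [Real.log_div ht0.ne' h0.ne'] at this
      have h3 := mul_le_mul_of_nonneg_left this hG0
      have h4 : G * (t / G - 1) = t - G := by field_simp
      nlinarith
  refine hvar.trans ?_
  have hp : ∀ x, f x ^ 2 * Real.log (f x ^ 2) - f x ^ 2 * Real.log t - f x ^ 2 + t ≤
      16 * (f x - c) ^ 2 + 12 * κ * (|f x - c| ^ ((12 : ℝ) / 5) + N ^ ((12 : ℝ) / 5)) := by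
    intro x
    have := point (c := c) (F := f x - c) hN ht
    rw [show c + (f x - c) = f x by ring] at this
    exact this
  refine (integral_mono i4 j4 hp).trans ?_
  have e2 : ∫ x, (16 * (f x - c) ^ 2 + 12 * κ * (|f x - c| ^ ((12 : ℝ) / 5) + N ^ ((12 : ℝ) / 5))) ∂μ
      = 16 * ∫ x, (f x - c) ^ 2 ∂μ +
        12 * κ * (∫ x, |f x - c| ^ ((12 : ℝ) / 5) ∂μ + N ^ ((12 : ℝ) / 5)) := by
    rw [integral_add j1 j3, integral_const_mul, integral_const_mul,
      integral_add hi (integrable_const _)]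
    simp
  have hF2le : ∫ x, (f x - c) ^ 2 ∂μ ≤ N ^ 2 + κ * N ^ ((12 : ℝ) / 5) := by
    refine (integral_mono hF2 k2 (fun x => sq_le_aux (F := f x - c) hN)).trans ?_
    have e3 : ∫ x, (N ^ 2 + κ * |f x - c| ^ ((12 : ℝ) / 5)) ∂μ
        = N ^ 2 + κ * ∫ x, |f x - c| ^ ((12 : ℝ) / 5) ∂μ := by
      rw [integral_add (integrable_const _) k1, integral_const_mul]
      simp
    rw [e3]
    nlinarith [mul_le_mul_of_nonneg_left h hκ0.le]
  have hκN : κ * N ^ ((12 : ℝ) / 5) = N ^ 2 := by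
    rw [hκ]; field_simp
  rw [e2]
  have := mul_le_mul_of_nonneg_left h hκ0.le
  nlinarith

end Vale.Agent.P245.H847
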