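import Vale.Agent.P245.Defs

open MeasureTheory

namespace Vale.Agent.P245.H847

/-- `(1+y) log (1+y) - y ≤ y ^ 2` for `y ≥ -1`. -/
theorem psi_le_sq {y : ℝ} (hy : -1 ≤ y) :
    (1 + y) * Real.log (1 + y) - y ≤ y ^ 2 := by
  rcases eq_or_lt_of_le hy with h | h
  · rw [← h]; norm_num
  · have h1 : 0 < 1 + y := by linarith
    have h2 := Real.log_le_sub_one_of_pos h1
    nlinarith [mul_le_mul_of_nonneg_left h2 h1.le]

theorem log_one_add_le {y : ℝ} (hy : 0 ≤ y) :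
    Real.log (1 + y) ≤ 5 * y ^ ((1 : ℝ) / 5) := by
  have h0 : 0 ≤ y ^ ((1 : ℝ) / 5) := Real.rpow_nonneg hy _
  set z := y ^ ((1 : ℝ) / 5) with hz
  have h1 : z ^ 5 = y := by
    rw [hz, ← Real.rpow_natCast, ← Real.rpow_mul hy]
    norm_num
  have h2 : 1 + y ≤ (1 + z) ^ 5 := by
    rw [← h1]
    nlinarith [pow_nonneg h0 2, pow_nonneg h0 3, pow_nonneg h0 4]
  calc Real.log (1 + y) ≤ Real.log ((1 + z) ^ 5) := Real.log_le_log (by linarith) h2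
    _ = 5 * Real.log (1 + z) := by rw [Real.log_pow]; norm_num
    _ ≤ 5 * z := by
      have := Real.log_le_sub_one_of_pos (show 0 < 1 + z by linarith)
      linarith

theorem psi_le_rpow {y : ℝ} (hy : -1 ≤ y) :
    (1 + y) * Real.log (1 + y) - y ≤ 5 * |y| ^ ((6 : ℝ) / 5) := by
  rcases le_or_gt 0 y with h | h
  · have h1 := log_one_add_le h
    have h2 : Real.log (1 + y) ≤ y := by
      have := Real.log_le_sub_one_of_pos (show 0 < 1 + y by linarith)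
      linarith
    have h3 : (1 + y) * Real.log (1 + y) - y ≤ y * Real.log (1 + y) := by
      nlinarith
    have h4 : y ^ ((6 : ℝ) / 5) = y * y ^ ((1 : ℝ) / 5) := by
      rcases eq_or_lt_of_le h with h0 | h0
      · rw [← h0]; norm_num
      · rw [show (6 : ℝ) / 5 = 1 + 1 / 5 by norm_num, Real.rpow_add h0, Real.rpow_one]
    rw [abs_of_nonneg h, h4]
    nlinarith [mul_le_mul_of_nonneg_left h1 h]
  · have h1 := psi_le_sq hy
    have h2 : |y| ≤ 1 := by rw [abs_of_neg h]; linarith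
    have h3 : 0 < |y| := abs_pos.mpr h.ne
    have h4 : |y| ^ (2 : ℝ) ≤ |y| ^ ((6 : ℝ) / 5) :=
      Real.rpow_le_rpow_of_exponent_ge h3 h2 (by norm_num)
    rw [Real.rpow_two, sq_abs] at h4
    have h5 : 0 ≤ |y| ^ ((6 : ℝ) / 5) := Real.rpow_nonneg h3.le _
    linarith

/-- splitting `y = y₁ + y₂` -/
theorem psi_split {y y1 y2 : ℝ} (hy : -1 ≤ y) (h : y = y1 + y2) :
    (1 + y) * Real.log (1 + y) - y ≤ 4 * y1 ^ 2 + 12 * |y2| ^ ((6 : ℝ) / 5) := by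
  have hr : 0 ≤ |y2| ^ ((6 : ℝ) / 5) := Real.rpow_nonneg (abs_nonneg _) _
  rcases le_total |y2| |y1| with h1 | h1
  · have h2 := psi_le_sq hy
    have h3 : |y| ≤ 2 * |y1| := by
      rw [h]; linarith [abs_add_le y1 y2]
    have h4 : y ^ 2 ≤ (2 * |y1|) ^ 2 := by
      rw [← sq_abs y]
      exact pow_le_pow_left₀ (abs_nonneg _) h3 2
    rw [mul_pow, sq_abs] at h4
    linarith
  · have h2 := psi_le_rpow hy
    have h3 : |y| ≤ 2 * |y2| := by
      rw [h]; linarith [abs_add_le y1 y2]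
    have h4 : |y| ^ ((6 : ℝ) / 5) ≤ (2 * |y2|) ^ ((6 : ℝ) / 5) :=
      Real.rpow_le_rpow (abs_nonneg _) h3 (by norm_num)
    rw [Real.mul_rpow (by norm_num) (abs_nonneg _)] at h4
    have h5 : (2 : ℝ) ^ ((6 : ℝ) / 5) ≤ 12 / 5 := by
      have : ((2 : ℝ) ^ ((6 : ℝ) / 5)) ^ 5 ≤ (12 / 5) ^ 5 := by
        rw [← Real.rpow_natCast, ← Real.rpow_mul (by norm_num)]
        norm_num
      exact le_of_pow_le_pow_left₀ (by norm_num) (by norm_num) this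
    have h6 : (2 : ℝ) ^ ((6 : ℝ) / 5) * |y2| ^ ((6 : ℝ) / 5) ≤ 12 / 5 * |y2| ^ ((6 : ℝ) / 5) :=
      mul_le_mul_of_nonneg_right h5 hr
    nlinarith [sq_nonneg y1]

/-- The pointwise inequality behind the entropy bound. -/
theorem point {c F N t : ℝ} (hN : 0 < N) (ht : t = c ^ 2 + N ^ 2) :
    (c + F) ^ 2 * Real.log ((c + F) ^ 2) - (c + F) ^ 2 * Real.log t - (c + F) ^ 2 + t ≤
      16 * F ^ 2 + 12 * (N ^ 2 * (N ^ ((12 : ℝ) / 5))⁻¹) *
        (|F| ^ ((12 : ℝ) / 5) + N ^ ((12 : ℝ) / 5)) := by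
  have ht0 : 0 < t := by rw [ht]; positivity
  set y := (c + F) ^ 2 / t - 1 with hy
  have hy1 : -1 ≤ y := by
    have : 0 ≤ (c + F) ^ 2 / t := by positivity
    linarith
  have e1 : (c + F) ^ 2 = t * (1 + y) := by rw [hy]; field_simp; ring
  have e2 : y = 2 * c * F / t + (F ^ 2 - N ^ 2) / t := by
    rw [hy, ht]
    have : c ^ 2 + N ^ 2 ≠ 0 := by rw [← ht]; exact ht0.ne'
    field_simp
    ring
  have h1 := psi_split hy1 e2
  have e3 : (c + F) ^ 2 * Real.log ((c + F) ^ 2) - (c + F) ^ 2 * Real.log t - (c + F) ^ 2 + t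
      = t * ((1 + y) * Real.log (1 + y) - y) := by
    rcases eq_or_ne (1 + y) 0 with h0 | h0
    · have h00 : (c + F) ^ 2 = 0 := by rw [e1, h0, mul_zero]
      rw [h00]
      have : y = -1 := by linarith
      rw [this]; norm_num
    · rw [e1, Real.log_mul ht0.ne' h0]; ring
  rw [e3]
  have hr : |(F ^ 2 - N ^ 2) / t| ^ ((6 : ℝ) / 5) ≤
      t⁻¹ * ((N ^ 2 * (N ^ ((12 : ℝ) / 5))⁻¹) * (|F| ^ ((12 : ℝ) / 5) + N ^ ((12 : ℝ) / 5))) := by
    have hF2 : (F ^ 2) ^ ((6 : ℝ) / 5) = |F| ^ ((12 : ℝ) / 5) := by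
      rw [← sq_abs, ← Real.rpow_natCast, ← Real.rpow_mul (abs_nonneg _)]
      norm_num
    have hN2 : (N ^ 2) ^ ((6 : ℝ) / 5) = N ^ ((12 : ℝ) / 5) := by
      rw [← Real.rpow_natCast, ← Real.rpow_mul hN.le]
      norm_num
    have ha : |F ^ 2 - N ^ 2| ^ ((6 : ℝ) / 5) ≤ |F| ^ ((12 : ℝ) / 5) + N ^ ((12 : ℝ) / 5) := by
      have hb : |F ^ 2 - N ^ 2| ≤ max (F ^ 2) (N ^ 2) := by
        rw [abs_le]
        constructor
        · have := le_max_right (F ^ 2) (N ^ 2)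
          nlinarith [sq_nonneg F, sq_nonneg N]
        · have := le_max_left (F ^ 2) (N ^ 2)
          nlinarith [sq_nonneg F, sq_nonneg N]
      have hc : |F ^ 2 - N ^ 2| ^ ((6 : ℝ) / 5) ≤ (max (F ^ 2) (N ^ 2)) ^ ((6 : ℝ) / 5) :=
        Real.rpow_le_rpow (abs_nonneg _) hb (by norm_num)
      have p1 : 0 ≤ |F| ^ ((12 : ℝ) / 5) := Real.rpow_nonneg (abs_nonneg _) _
      have p2 : 0 ≤ N ^ ((12 : ℝ) / 5) := Real.rpow_nonneg hN.le _
      rcases le_total (F ^ 2) (N ^ 2) with h | h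
      · rw [max_eq_right h, hN2] at hc; linarith
      · rw [max_eq_left h, hF2] at hc; linarith
    rw [abs_div, abs_of_pos ht0, Real.div_rpow (abs_nonneg _) ht0.le]
    -- t^(6/5) ≥ t * (N^2)^(1/5)
    have hb : (t ^ ((6 : ℝ) / 5))⁻¹ ≤ t⁻¹ * (N ^ 2 * (N ^ ((12 : ℝ) / 5))⁻¹) := by
      have q1 : t ^ ((6 : ℝ) / 5) = t * t ^ ((1 : ℝ) / 5) := by
        rw [show (6 : ℝ) / 5 = 1 + 1 / 5 by norm_num, Real.rpow_add ht0, Real.rpow_one]
      have q2 : N ^ ((12 : ℝ) / 5) = N ^ 2 * (N ^ 2) ^ ((1 : ℝ) / 5) := by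
        rw [show (12 : ℝ) / 5 = 2 + 2 * (1 / 5) by norm_num, Real.rpow_add hN, Real.rpow_mul hN.le,
          Real.rpow_two]
      have q3 : (N ^ 2) ^ ((1 : ℝ) / 5) ≤ t ^ ((1 : ℝ) / 5) :=
        Real.rpow_le_rpow (by positivity) (by rw [ht]; nlinarith [sq_nonneg c]) (by norm_num)
      have q4 : 0 < (N ^ 2) ^ ((1 : ℝ) / 5) := Real.rpow_pos_of_pos (by positivity) _
      rw [q1, q2, mul_inv, mul_inv, ← mul_assoc (N ^ 2), mul_inv_cancel₀ (by positivity), one_mul]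
      exact mul_le_mul_of_nonneg_left (inv_anti₀ q4 q3) (by positivity)
    have p0 : 0 ≤ |F| ^ ((12 : ℝ) / 5) + N ^ ((12 : ℝ) / 5) := by positivity
    calc |F ^ 2 - N ^ 2| ^ ((6 : ℝ) / 5) / t ^ ((6 : ℝ) / 5)
        = |F ^ 2 - N ^ 2| ^ ((6 : ℝ) / 5) * (t ^ ((6 : ℝ) / 5))⁻¹ := by rw [div_eq_mul_inv]
      _ ≤ (|F| ^ ((12 : ℝ) / 5) + N ^ ((12 : ℝ) / 5)) * (t⁻¹ * (N ^ 2 * (N ^ ((12 : ℝ) / 5))⁻¹)) :=
          mul_le_mul ha hb (by positivity) p0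
      _ = _ := by ring
  have hs : t * (4 * (2 * c * F / t) ^ 2) ≤ 16 * F ^ 2 := by
    have : t * (4 * (2 * c * F / t) ^ 2) = 16 * F ^ 2 * (c ^ 2 / t) := by
      field_simp; ring
    rw [this]
    have h2 : c ^ 2 / t ≤ 1 := by
      rw [div_le_one ht0, ht]; nlinarith [sq_nonneg N]
    nlinarith [sq_nonneg F, mul_le_mul_of_nonneg_left h2 (show 0 ≤ 16 * F ^ 2 by positivity)]
  have hm := mul_le_mul_of_nonneg_left h1 ht0.le
  have hr' := mul_le_mul_of_nonneg_left hr ht0.le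
  rw [← mul_assoc, mul_inv_cancel₀ ht0.ne', one_mul] at hr'
  nlinarith [hm, hr', hs]

end Vale.Agent.P245.H847
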