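import Vale.Agent.P245.H847.HandIn3
import Vale.Agent.P245.H847.Stmt

/-!
P245: the hand-in over named statements.
-/

open MeasureTheory Matrix
open scoped ContDiff

namespace Vale.Agent.P245.H847

open Vale.Agent.P245

theorem handin4
    (h : ∃ C : ℝ, 0 < C ∧ ∀ (n : ℕ) (μ : Measure (EuclideanSpace ℝ (Fin n))) [IsProbabilityMeasure μ],
      HasLogConcaveDensity μ → ∀ (b : Fin n → ℝ) (K : Matrix (Fin n) (Fin n) ℝ),
      (∀ i, ∫ x, x i ∂μ = b i) → (∀ i j, ∫ x, (x i - b i) * (x j - b j) ∂μ = K i j) →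
      ∀ f : EuclideanSpace ℝ (Fin n) → ℝ, ContDiff ℝ ∞ f → HasCompactSupport f →
        (∫ x, f x ^ 2 ∂μ) - (∫ x, f x ∂μ) ^ 2 ≤
          C * ∫ x, ∑ i, ∑ j, K i j * (gradient f x i * gradient f x j) ∂μ) :
    ∃ C : ℝ, 0 < C ∧ ∀ (n : ℕ) (μ : Measure (EuclideanSpace ℝ (Fin n))) [IsProbabilityMeasure μ],
      HasLogConcaveDensity μ →
      AffinePoincare μ C ∧
      (∀ Λ : ℝ, 0 ≤ Λ → CovarianceLE μ Λ → SmoothInequalities μ C Λ) ∧
      (∀ a : ℝ, 0 < a → LinearlySubgaussian μ a →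
        SmoothInequalities μ C (a ^ 2) ∧ KurtosisInequality μ C (a ^ 2) ∧
        PolynomialLogSobolev μ C (a ^ 2) ∧ QuasiconcaveLogSobolev μ C (a ^ 2) ∧
        ConvexIsoperimetry μ C a ∧ ConvexConcentration μ C a) := by
  obtain ⟨C, hC, h⟩ := handin3 h
  refine ⟨C, hC, fun n μ _ hlc => ?_⟩
  obtain ⟨h1, h2⟩ := h n μ hlc
  refine ⟨fun b K hb hK f hf hfc => (h1 b K hb hK f hf hfc).1, fun Λ hΛ0 hΛ f hf hfc => ?_,
    fun a ha hsub => ?_⟩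
  · refine (h1 (fun i => ∫ x, x i ∂μ)
      (fun i j => ∫ x, (x i - ∫ x, x i ∂μ) * (x j - ∫ x, x j ∂μ) ∂μ) (fun i => rfl)
      (fun i j => rfl) f hf hfc).2 Λ hΛ0 fun v => ?_
    refine le_trans (le_of_eq ?_) (hΛ v)
    simp only [dotProduct, mulVec, Finset.mul_sum]
    exact Finset.sum_congr rfl fun i _ => Finset.sum_congr rfl fun j _ => by ring
  · obtain ⟨g1, g2, g3, g4, g5, g6⟩ := h2 a ha hsub
    exact ⟨fun f hf hfc => ⟨(g1 f hf hfc).1, (g1 f hf hfc).2.1, (g1 f hf hfc).2.2.2⟩,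
      fun f hf hfc => (g1 f hf hfc).2.2.1, g2, g5, ⟨g6, g4⟩, g3⟩

end Vale.Agent.P245.H847
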