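import Vale.Agent.P245.H847.Stmt3
import Vale.Agent.P245.H847.Multi
import Vale.Agent.P245.H177.Semi2
import Vale.Agent.P245.H235.Sum
import Vale.Agent.P245.H607.RareF
import Vale.Agent.P245.H663.Final
import Vale.Agent.P245.H7.HandDef
import Vale.Agent.P245.H411.Clause

open MeasureTheory Set Filter
open scoped ContDiff

namespace Vale.Agent.P245.H847

open Vale.Agent.P245

variable {n : ℕ}

theorem qc_of_multi {μ : Measure (EuclideanSpace ℝ (Fin n))} [IsProbabilityMeasure μ] {D : ℝ}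
    (h : DFP.MultipeakLogSobolev μ D) (g : EuclideanSpace ℝ (Fin n) → ℝ) (hg : ContDiff ℝ ∞ g)
    (hc : HasCompactSupport g) (hq : QuasiconcaveOn ℝ univ (fun x => |g x|)) :
    Entropy μ (fun x => g x ^ 2) ≤ D * ∫ x, ‖gradient g x‖ ^ 2 ∂μ := by
  have h1 := h g hg hc 0 le_rfl (Eventually.of_forall fun t _ => ⟨1, fun _ => {x | t ≤ |g x|},
    fun _ => by simpa using hq t, fun _ => isClosed_le continuous_const hg.continuous.abs,
    fun i j hij => absurd (Subsingleton.elim i j) hij, (iUnion_const _).symm⟩)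
  simpa using h1

theorem supp_of_sum {f : EuclideanSpace ℝ (Fin n) → ℝ} (hc : HasCompactSupport f) {N : ℕ}
    {g : Fin N → EuclideanSpace ℝ (Fin n) → ℝ} (hs : ∀ x, f x ^ 2 = ∑ i, g i x ^ 2) (i : Fin N) :
    HasCompactSupport (g i) := by
  refine hc.mono' fun x hx => subset_tsupport _ ?_
  intro h0
  have h1 : g i x ^ 2 ≤ f x ^ 2 := by
    rw [hs x]
    exact Finset.single_le_sum (f := fun i => g i x ^ 2) (fun j _ => sq_nonneg _)
      (Finset.mem_univ i)
  rw [h0] at h1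
  exact hx (by nlinarith [sq_nonneg (g i x)])

theorem semi3 (h : ∃ C : ℝ, 0 < C ∧ H607.KLS C) :
    ∃ C : ℝ, 0 < C ∧ ∀ (n : ℕ) (μ : Measure (EuclideanSpace ℝ (Fin n))) [IsProbabilityMeasure μ],
      HasLogConcaveDensity μ → ∀ a : ℝ, 0 < a → LinearlySubgaussian μ a →
        SLS.QuasiconcavePeaks μ (C * a ^ 2) ∧ SLS.SemiconcavePeaks μ (C * a ^ 2) ∧
        RareLogSobolev μ C a ∧ H663.BoundedStretchTransport μ (C * a ^ 2) ∧
        H7.BesselConcentration μ C a ∧ TiltTransport μ C a := by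
  obtain ⟨M1, hM1, hm⟩ := multi_of h
  obtain ⟨M2, hM2, hb⟩ := H7.hand_def h
  obtain ⟨M3, hM3, hr⟩ := H607.rareLogSobolev
  obtain ⟨C0, hC0, hK⟩ := h
  have hmain := handin hC0 hK
  obtain ⟨C, hCdef⟩ : ∃ C : ℝ, C = M1 + M2 + M3 * (1 + 200 * C0) + 6 * (200 * C0 + 1) +
    (2 * √C0 + 4) ^ 2 := ⟨_, rfl⟩
  have p1 : 0 < M3 * (1 + 200 * C0) := by positivity
  have p2 : 0 < 6 * (200 * C0 + 1) := by positivity
  have p3 : 0 < (2 * √C0 + 4) ^ 2 := by positivity
  have hC : 0 < C := by rw [hCdef]; positivity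
  refine ⟨C, hC, fun n μ _ hlc a ha hsub => ?_⟩
  have hD : (0 : ℝ) ≤ C * a ^ 2 := by positivity
  have hle : M1 * a ^ 2 ≤ C * a ^ 2 := mul_le_mul_of_nonneg_right (by linarith) (sq_nonneg a)
  have hP : ∀ g : EuclideanSpace ℝ (Fin n) → ℝ, ContDiff ℝ ∞ g → HasCompactSupport g →
      (∫ x, g x ^ 2 ∂μ) - (∫ x, g x ∂μ) ^ 2 ≤ 200 * C0 * a ^ 2 * ∫ x, ‖gradient g x‖ ^ 2 ∂μ :=
    fun g hg hgc => ((hmain n μ hlc (fun i => ∫ x, x i ∂μ)
      (fun i j => ∫ x, (x i - ∫ x, x i ∂μ) * (x j - ∫ x, x j ∂μ) ∂μ) (fun i => rfl)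
      (fun i j => rfl) g hg hgc).2.2 a ha hsub).1
  have hQC : ∀ g : EuclideanSpace ℝ (Fin n) → ℝ, ContDiff ℝ ∞ g → HasCompactSupport g →
      QuasiconcaveOn ℝ univ (fun x => |g x|) →
      Entropy μ (fun x => g x ^ 2) ≤ C * a ^ 2 * ∫ x, ‖gradient g x‖ ^ 2 ∂μ :=
    fun g hg hgc hq => (qc_of_multi (hm n μ hlc a ha hsub) g hg hgc hq).trans
      (mul_le_mul_of_nonneg_right hle (integral_nonneg fun x => sq_nonneg _))
  refine ⟨?_, ?_, ?_, ?_, ?_, ?_⟩
  · intro f hf hfc N g hg hs hq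
    refine (H235.Sum.ent_sum (μ := μ) Finset.univ hf.continuous hfc
      (fun i _ => (hg i).continuous) hs).trans ?_
    rw [Finset.mul_sum]
    exact Finset.sum_le_sum fun i _ => hQC (g i) (hg i) (supp_of_sum hfc hs i) (hq i)
  · intro f hf hfc N m g b hg hs hconc
    refine (H235.Sum.ent_sum (μ := μ) Finset.univ hf.continuous hfc
      (fun i _ => (hg i).continuous) hs).trans ?_
    rw [Finset.mul_sum]
    exact Finset.sum_le_sum fun i _ =>
      H177.semi μ hD hQC m (b i) (g i) (hg i) (supp_of_sum hfc hs i) (hconc i)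
  · exact hr n μ hlc a ha hsub (200 * C0) (by positivity) hP C (by linarith)
  · have h1 := H663.block' hlc (C := C / 6 - 1) ha hsub (by linarith) (fun g hg hgc =>
      (hP g hg hgc).trans (mul_le_mul_of_nonneg_right (mul_le_mul_of_nonneg_right (by linarith)
        (sq_nonneg a)) (integral_nonneg fun x => sq_nonneg _)))
    have e : 6 * (C / 6 - 1 + 1) * a ^ 2 = C * a ^ 2 := by ring
    rwa [e] at h1
  · exact hb n μ hlc a ha hsub C (by linarith)
  · exact H411.tiltTransport_of hC0 hK (by linarith) hlc ha hsub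

end Vale.Agent.P245.H847
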