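import Vale.Agent.P245.Defs

/-!
P245: named parts of the hand-in `SemiconcaveLogSobolev`. In all of them `μ` is a probability
measure on `ℝ^n`.
-/

open MeasureTheory
open scoped ContDiff

namespace Vale.Agent.P245.SLS

open Vale.Agent.P245

variable {n : ℕ}

/-- logarithmic Sobolev inequality for `f² = ∑ i, (g i)²` with smooth `g i`, all `|g i|`
quasi-concave. -/
def QuasiconcavePeaks (μ : Measure (EuclideanSpace ℝ (Fin n))) (D : ℝ) : Prop :=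
  ∀ f : EuclideanSpace ℝ (Fin n) → ℝ, ContDiff ℝ ∞ f → HasCompactSupport f →
    ∀ (N : ℕ) (g : Fin N → EuclideanSpace ℝ (Fin n) → ℝ), (∀ i, ContDiff ℝ ∞ (g i)) →
      (∀ x, f x ^ 2 = ∑ i, g i x ^ 2) →
      (∀ i, QuasiconcaveOn ℝ Set.univ (fun x => |g i x|)) →
      Entropy μ (fun x => f x ^ 2) ≤ D * ∑ i, ∫ x, ‖gradient (g i) x‖ ^ 2 ∂μ

/-- logarithmic Sobolev inequality for `f² = ∑ i, (g i)²` with smooth `g i` such that
`log (g i)² - ½ ∑ j, ⟨b i j, x⟩²` is concave on `{g i ≠ 0}`, i.e. `D² log (g i)²` is at most the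
constant matrix `∑ j, b i j ⊗ b i j` there; the defect is a quarter of its trace. -/
def SemiconcavePeaks (μ : Measure (EuclideanSpace ℝ (Fin n))) (D : ℝ) : Prop :=
  ∀ f : EuclideanSpace ℝ (Fin n) → ℝ, ContDiff ℝ ∞ f → HasCompactSupport f →
    ∀ (N m : ℕ) (g : Fin N → EuclideanSpace ℝ (Fin n) → ℝ)
      (b : Fin N → Fin m → EuclideanSpace ℝ (Fin n)), (∀ i, ContDiff ℝ ∞ (g i)) →
      (∀ x, f x ^ 2 = ∑ i, g i x ^ 2) →
      (∀ i, ConcaveOn ℝ {x | g i x ≠ 0}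
        (fun x => Real.log (g i x ^ 2) - 1 / 2 * ∑ j, inner ℝ (b i j) x ^ 2)) →
      Entropy μ (fun x => f x ^ 2) ≤
        D * ∑ i, ((∫ x, ‖gradient (g i) x‖ ^ 2 ∂μ) +
          (1 / 4 * ∑ j, ‖b i j‖ ^ 2) * ∫ x, g i x ^ 2 ∂μ)

end Vale.Agent.P245.SLS
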